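import Vale.Agent.P243.Main

/-!
Brunn-Minkowski inequality for planar convex sets.
-/

namespace Vale.Agent.P243

open Finset MeasureTheory
open scoped Pointwise ENNReal NNReal

theorem bm_one (I J T : Set ℝ) (hI : Convex ℝ I) (hJ : Convex ℝ J) (hIn : I.Nonempty)
    (hJn : J.Nonempty) (l : ℝ) (hl0' : 0 < l) (hl1' : l < 1)
    (hT : ∀ a ∈ I, ∀ b ∈ J, (1 - l) * a + l * b ∈ T) :
    ENNReal.ofReal (1 - l) * volume I + ENNReal.ofReal l * volume J ≤ volume T := by
  have hl0 : 0 ≤ l := hl0'.le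
  have hl1 : l ≤ 1 := hl1'.le
  have key : ∀ a ∈ I, ∀ a' ∈ I, ∀ b ∈ J, ∀ b' ∈ J, a ≤ a' → b ≤ b' →
      ENNReal.ofReal ((1 - l) * (a' - a) + l * (b' - b)) ≤ volume T := by
    intro a ha a' ha' b hb b' hb' hab hbb
    have hsub : Set.Icc ((1 - l) * a + l * b) ((1 - l) * a' + l * b') ⊆ T := by
      intro z hz
      rcases (show (1 - l) * a + l * b ≤ (1 - l) * a' + l * b' from hz.1.trans hz.2).eq_or_lt
        with h0 | h0
      · have : z = (1 - l) * a + l * b := le_antisymm (h0 ▸ hz.2) hz.1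
        rw [this]
        exact hT a ha b hb
      · obtain ⟨d, hd⟩ : ∃ d, d = ((1 - l) * a' + l * b') - ((1 - l) * a + l * b) := ⟨_, rfl⟩
        have hd0 : 0 < d := by rw [hd]; linarith
        obtain ⟨μ, hμ⟩ : ∃ μ, μ = (z - ((1 - l) * a + l * b)) / d := ⟨_, rfl⟩
        have hμ0 : 0 ≤ μ := by rw [hμ]; exact div_nonneg (by linarith [hz.1]) hd0.le
        have hμ1 : μ ≤ 1 := by rw [hμ, div_le_one hd0, hd]; linarith [hz.2]
        have hμd : μ * d = z - ((1 - l) * a + l * b) := by rw [hμ]; field_simp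
        have h1 := hI ha ha' (sub_nonneg.mpr hμ1) hμ0 (by ring)
        have h2 := hJ hb hb' (sub_nonneg.mpr hμ1) hμ0 (by ring)
        have h3 := hT _ h1 _ h2
        simp only [smul_eq_mul] at h3
        have e : (1 - l) * ((1 - μ) * a + μ * a') + l * ((1 - μ) * b + μ * b') = z := by
          have : (1 - l) * ((1 - μ) * a + μ * a') + l * ((1 - μ) * b + μ * b')
              = ((1 - l) * a + l * b) + μ * d := by rw [hd]; ring
          rw [this, hμd]; ring
        rwa [e] at h3
    calc ENNReal.ofReal ((1 - l) * (a' - a) + l * (b' - b))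
        = volume (Set.Icc ((1 - l) * a + l * b) ((1 - l) * a' + l * b')) := by
          rw [Real.volume_Icc]; congr 1; ring
      _ ≤ volume T := measure_mono hsub
  -- approximate the lengths
  have hstep : ∀ a ∈ I, ∀ a' ∈ I, ∀ b ∈ J, ∀ b' ∈ J,
      ENNReal.ofReal (1 - l) * edist a a' + ENNReal.ofReal l * edist b b' ≤ volume T := by
    intro a ha a' ha' b hb b' hb'
    have h1 : ENNReal.ofReal (1 - l) * edist a a' + ENNReal.ofReal l * edist b b'
        = ENNReal.ofReal ((1 - l) * (max a a' - min a a') + l * (max b b' - min b b')) := by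
      rw [edist_dist, edist_dist, Real.dist_eq, Real.dist_eq, max_sub_min_eq_abs,
        max_sub_min_eq_abs, ENNReal.ofReal_add (mul_nonneg (by linarith) (abs_nonneg _))
        (mul_nonneg hl0 (abs_nonneg _)), ENNReal.ofReal_mul (by linarith), ENNReal.ofReal_mul hl0,
        abs_sub_comm a' a, abs_sub_comm b' b]
    rw [h1]
    apply key
    · rcases min_choice a a' with h | h <;> rw [h] <;> assumption
    · rcases max_choice a a' with h | h <;> rw [h] <;> assumption
    · rcases min_choice b b' with h | h <;> rw [h] <;> assumption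
    · rcases max_choice b b' with h | h <;> rw [h] <;> assumption
    · exact min_le_max
    · exact min_le_max
  by_cases hTtop : volume T = ∞
  · rw [hTtop]; exact le_top
  have hc0 : ENNReal.ofReal (1 - l) ≠ 0 := by
    rw [Ne, ENNReal.ofReal_eq_zero, not_le]; linarith
  have he0 : ENNReal.ofReal l ≠ 0 := by
    rw [Ne, ENNReal.ofReal_eq_zero, not_le]; linarith
  have s1 : ∀ b ∈ J, ∀ b' ∈ J,
      ENNReal.ofReal (1 - l) * volume I + ENNReal.ofReal l * edist b b' ≤ volume T := by
    intro b hb b' hb'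
    have hX : ENNReal.ofReal l * edist b b' ≠ ∞ :=
      ENNReal.mul_ne_top ENNReal.ofReal_ne_top (edist_ne_top _ _)
    have h1 : volume I ≤ (volume T - ENNReal.ofReal l * edist b b') / ENNReal.ofReal (1 - l) := by
      refine (Real.volume_le_diam I).trans (Metric.ediam_le fun a ha a' ha' => ?_)
      rw [ENNReal.le_div_iff_mul_le (Or.inl hc0) (Or.inl ENNReal.ofReal_ne_top), mul_comm]
      exact ENNReal.le_sub_of_add_le_right hX (hstep a ha a' ha' b hb b' hb')
    rw [ENNReal.le_div_iff_mul_le (Or.inl hc0) (Or.inl ENNReal.ofReal_ne_top), mul_comm] at h1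
    obtain ⟨a, ha⟩ := hIn
    have h2 := hstep a ha a ha b hb b' hb'
    rw [edist_self, mul_zero, zero_add] at h2
    calc ENNReal.ofReal (1 - l) * volume I + ENNReal.ofReal l * edist b b'
        ≤ (volume T - ENNReal.ofReal l * edist b b') + ENNReal.ofReal l * edist b b' :=
          add_le_add h1 le_rfl
      _ = volume T := tsub_add_cancel_of_le h2
  obtain ⟨b, hb⟩ := hJn
  have s2 := s1 b hb b hb
  rw [edist_self, mul_zero, add_zero] at s2
  have hY : ENNReal.ofReal (1 - l) * volume I ≠ ∞ := ne_top_of_le_ne_top hTtop s2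
  have h3 : volume J ≤ (volume T - ENNReal.ofReal (1 - l) * volume I) / ENNReal.ofReal l := by
    refine (Real.volume_le_diam J).trans (Metric.ediam_le fun c hc c' hc' => ?_)
    rw [ENNReal.le_div_iff_mul_le (Or.inl he0) (Or.inl ENNReal.ofReal_ne_top), mul_comm]
    exact ENNReal.le_sub_of_add_le_left hY (s1 c hc c' hc')
  rw [ENNReal.le_div_iff_mul_le (Or.inl he0) (Or.inl ENNReal.ofReal_ne_top), mul_comm] at h3
  calc ENNReal.ofReal (1 - l) * volume I + ENNReal.ofReal l * volume J
      ≤ ENNReal.ofReal (1 - l) * volume I + (volume T - ENNReal.ofReal (1 - l) * volume I) :=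
        add_le_add le_rfl h3
    _ = volume T := add_tsub_cancel_of_le s2

/-- The length of a vertical section. -/
noncomputable def sec (A : Set (ℝ × ℝ)) (x : ℝ) : ℝ := (volume (Prod.mk x ⁻¹' A)).toReal

theorem sec_nonneg (A : Set (ℝ × ℝ)) (x : ℝ) : 0 ≤ sec A x := ENNReal.toReal_nonneg

theorem sec_conv (A : Set (ℝ × ℝ)) (hA : Convex ℝ A) (x : ℝ) : Convex ℝ (Prod.mk x ⁻¹' A) := by
  intro y hy y' hy' a b ha hb hab
  have := hA hy hy' ha hb hab
  have e : a • ((x, y) : ℝ × ℝ) + b • ((x, y') : ℝ × ℝ) = (x, a • y + b • y') := by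
    ext
    · simp only [Prod.fst_add, Prod.smul_fst, smul_eq_mul, ← add_mul, hab, one_mul]
    · simp
  rw [e] at this
  exact this

theorem sec_bm (A B C : Set (ℝ × ℝ)) (hA : Convex ℝ A) (hB : Convex ℝ B)
    (hCf : ∀ x, volume (Prod.mk x ⁻¹' C) ≠ ∞) (l : ℝ) (hl0 : 0 < l) (hl1 : l < 1)
    (hC : ∀ a ∈ A, ∀ b ∈ B, (1 - l) • a + l • b ∈ C) (x y : ℝ) (hx : 0 < sec A x)
    (hy : 0 < sec B y) : (1 - l) * sec A x + l * sec B y ≤ sec C ((1 - l) * x + l * y) := by
  have hxn : (Prod.mk x ⁻¹' A).Nonempty := by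
    rw [Set.nonempty_iff_ne_empty]
    intro h
    rw [sec, h, measure_empty, ENNReal.toReal_zero] at hx
    exact lt_irrefl _ hx
  have hyn : (Prod.mk y ⁻¹' B).Nonempty := by
    rw [Set.nonempty_iff_ne_empty]
    intro h
    rw [sec, h, measure_empty, ENNReal.toReal_zero] at hy
    exact lt_irrefl _ hy
  have h1 := bm_one _ _ (Prod.mk ((1 - l) * x + l * y) ⁻¹' C) (sec_conv A hA x) (sec_conv B hB y)
    hxn hyn l hl0 hl1 (by
      intro a ha b hb
      have := hC _ ha _ hb
      exact this)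
  have h2 := ENNReal.toReal_mono (hCf _) h1
  have f1 : volume (Prod.mk x ⁻¹' A) ≠ ∞ := by
    intro h; rw [sec, h, ENNReal.toReal_top] at hx; exact lt_irrefl _ hx
  have f2 : volume (Prod.mk y ⁻¹' B) ≠ ∞ := by
    intro h; rw [sec, h, ENNReal.toReal_top] at hy; exact lt_irrefl _ hy
  rw [ENNReal.toReal_add (ENNReal.mul_ne_top ENNReal.ofReal_ne_top f1)
    (ENNReal.mul_ne_top ENNReal.ofReal_ne_top f2), ENNReal.toReal_mul, ENNReal.toReal_mul,
    ENNReal.toReal_ofReal (by linarith), ENNReal.toReal_ofReal hl0.le] at h2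
  exact h2

theorem level_conv (A : Set (ℝ × ℝ)) (hA : Convex ℝ A)
    (hAf : ∀ x, volume (Prod.mk x ⁻¹' A) ≠ ∞) (t : ℝ) (ht : 0 < t) :
    Convex ℝ {x | t ≤ sec A x} := by
  intro x hx y hy a b ha hb hab
  rcases hb.eq_or_lt with h0 | h0
  · rw [← h0] at hab ⊢
    have : a = 1 := by linarith
    rw [this, one_smul, zero_smul, add_zero]; exact hx
  · rcases ha.eq_or_lt with h1 | h1
    · rw [← h1] at hab ⊢
      have : b = 1 := by linarith
      rw [this, one_smul, zero_smul, zero_add]; exact hy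
    · have e : a = 1 - b := by linarith
      have h2 := sec_bm A A A hA hA hAf b h0 (by linarith)
        (fun p hp q hq => hA hp hq (by linarith) hb (by ring)) x y (lt_of_lt_of_le ht hx)
        (lt_of_lt_of_le ht hy)
      change t ≤ sec A (a • x + b • y)
      rw [e, smul_eq_mul, smul_eq_mul]
      refine le_trans ?_ h2
      have hx' : t ≤ sec A x := hx
      have hy' : t ≤ sec A y := hy
      nlinarith

theorem area_layer (A : Set (ℝ × ℝ)) (mA : MeasurableSet A)
    (hAf : ∀ x, volume (Prod.mk x ⁻¹' A) ≠ ∞) (m : ℝ) (hm : 0 < m) :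
    volume A / ENNReal.ofReal m = ∫⁻ t in Set.Ioi (0 : ℝ), volume {x : ℝ | t * m ≤ sec A x} := by
  have hmeas : Measurable fun x => sec A x :=
    (measurable_measure_prodMk_left mA).ennreal_toReal
  have h1 := lintegral_eq_lintegral_meas_le (volume : Measure ℝ)
    (f := fun x => sec A x / m) (Filter.Eventually.of_forall fun x =>
      div_nonneg (sec_nonneg A x) hm.le) (hmeas.div_const m).aemeasurable
  have h2 : ∫⁻ x : ℝ, ENNReal.ofReal (sec A x / m) = volume A / ENNReal.ofReal m := by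
    rw [Measure.volume_eq_prod, Measure.prod_apply mA]
    simp only [ENNReal.ofReal_div_of_pos hm]
    simp only [div_eq_mul_inv]
    rw [lintegral_mul_const' _ _ (ENNReal.inv_ne_top.mpr (by
      rw [Ne, ENNReal.ofReal_eq_zero, not_le]; exact hm))]
    congr 1
    refine lintegral_congr fun x => ?_
    rw [sec, ENNReal.ofReal_toReal (hAf x)]
  rw [← h2, h1]
  refine lintegral_congr fun t => ?_
  congr 1
  ext x
  simp only [Set.mem_setOf_eq]
  rw [le_div_iff₀ hm]

end Vale.Agent.P243
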