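import Vale.Agent.P243.Bm

/-!
Brunn-Minkowski inequality for planar convex sets, second part.
-/

namespace Vale.Agent.P243

open Finset MeasureTheory
open scoped Pointwise ENNReal NNReal

theorem sec_zero_vol (A : Set (ℝ × ℝ)) (mA : MeasurableSet A)
    (hAf : ∀ x, volume (Prod.mk x ⁻¹' A) ≠ ∞) (h : ∀ x, sec A x ≤ 0) : volume A = 0 := by
  rw [Measure.volume_eq_prod, Measure.prod_apply mA]
  have : ∀ x : ℝ, volume (Prod.mk x ⁻¹' A) = 0 := by
    intro x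
    have h1 := le_antisymm (h x) (sec_nonneg A x)
    rw [sec, ENNReal.toReal_eq_zero_iff] at h1
    exact h1.resolve_right (hAf x)
  simp [this]

theorem layer_unit (A : Set (ℝ × ℝ)) (mA : MeasurableSet A)
    (hAf : ∀ x, volume (Prod.mk x ⁻¹' A) ≠ ∞) (m : ℝ) (hm : 0 < m) (hsup : ∀ x, sec A x ≤ m) :
    volume A / ENNReal.ofReal m
      = ∫⁻ t in Set.Ioo (0 : ℝ) 1, volume {x : ℝ | t * m ≤ sec A x} := by
  rw [area_layer A mA hAf m hm]
  have h1 : Set.Ioi (0 : ℝ) = Set.Ioc 0 1 ∪ Set.Ioi 1 := (Set.Ioc_union_Ioi_eq_Ioi zero_le_one).symm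
  have h2 : ∫⁻ t in Set.Ioi (1 : ℝ), volume {x : ℝ | t * m ≤ sec A x} = 0 := by
    rw [setLIntegral_congr_fun (g := fun _ => 0) measurableSet_Ioi (by
      intro t ht
      have : {x : ℝ | t * m ≤ sec A x} = ∅ := by
        rw [Set.eq_empty_iff_forall_notMem]
        intro x hx
        have hx' : t * m ≤ sec A x := hx
        have h3 := hsup x
        have h4 : (1 : ℝ) < t := ht
        nlinarith
      simp only [this, measure_empty])]
    simp
  rw [h1, lintegral_union measurableSet_Ioi (by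
    rw [Set.disjoint_left]
    intro x hx1 hx2
    exact absurd hx1.2 (not_le.mpr hx2)), h2, add_zero]
  exact setLIntegral_congr Ioo_ae_eq_Ioc.symm

theorem bm_two (A B C : Set (ℝ × ℝ)) (hA : Convex ℝ A) (hB : Convex ℝ B)
    (mA : MeasurableSet A) (mB : MeasurableSet B) (mC : MeasurableSet C)
    (hAf : ∀ x, volume (Prod.mk x ⁻¹' A) ≠ ∞) (hBf : ∀ x, volume (Prod.mk x ⁻¹' B) ≠ ∞)
    (hCf : ∀ x, volume (Prod.mk x ⁻¹' C) ≠ ∞) (R : ℝ) (hAR : ∀ x, sec A x ≤ R)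
    (hBR : ∀ x, sec B x ≤ R) (l : ℝ) (hl0 : 0 < l) (hl1 : l < 1)
    (hC : ∀ a ∈ A, ∀ b ∈ B, (1 - l) • a + l • b ∈ C)
    (hA0 : volume A ≠ 0) (hB0 : volume B ≠ 0) (hAt : volume A ≠ ∞) (hBt : volume B ≠ ∞)
    (hCt : volume C ≠ ∞) :
    ((1 - l) * Real.sqrt (volume A).toReal + l * Real.sqrt (volume B).toReal) ^ 2
      ≤ (volume C).toReal := by
  have bA : BddAbove (Set.range (sec A)) := ⟨R, by rintro _ ⟨x, rfl⟩; exact hAR x⟩
  have bB : BddAbove (Set.range (sec B)) := ⟨R, by rintro _ ⟨x, rfl⟩; exact hBR x⟩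
  obtain ⟨p, hp⟩ : ∃ p, p = ⨆ x, sec A x := ⟨_, rfl⟩
  obtain ⟨q, hq⟩ : ∃ q, q = ⨆ x, sec B x := ⟨_, rfl⟩
  have hpx : ∀ x, sec A x ≤ p := fun x => by rw [hp]; exact le_ciSup bA x
  have hqx : ∀ x, sec B x ≤ q := fun x => by rw [hq]; exact le_ciSup bB x
  have hp0 : 0 < p := by
    by_contra h
    push Not at h
    exact hA0 (sec_zero_vol A mA hAf fun x => (hpx x).trans h)
  have hq0 : 0 < q := by
    by_contra h
    push Not at h
    exact hB0 (sec_zero_vol B mB hBf fun x => (hqx x).trans h)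
  obtain ⟨m, hm⟩ : ∃ m, m = (1 - l) * p + l * q := ⟨_, rfl⟩
  have hm0 : 0 < m := by
    rw [hm]
    have : 0 < 1 - l := by linarith
    positivity
  have hkey : ENNReal.ofReal (1 - l) * (volume A / ENNReal.ofReal p)
      + ENNReal.ofReal l * (volume B / ENNReal.ofReal q) ≤ volume C / ENNReal.ofReal m := by
    rw [layer_unit A mA hAf p hp0 hpx, layer_unit B mB hBf q hq0 hqx, area_layer C mC hCf m hm0,
      ← lintegral_const_mul' _ _ ENNReal.ofReal_ne_top,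
      ← lintegral_const_mul' _ _ ENNReal.ofReal_ne_top]
    refine (le_lintegral_add _ _).trans ?_
    have hsubs : Set.Ioo (0 : ℝ) 1 ⊆ Set.Ioi 0 := fun x hx => hx.1
    refine le_trans ?_ (lintegral_mono_set hsubs)
    apply setLIntegral_mono' measurableSet_Ioo
    intro t ht
    refine bm_one {x | t * p ≤ sec A x} {x | t * q ≤ sec B x} {x | t * m ≤ sec C x}
      (level_conv A hA hAf _ (mul_pos ht.1 hp0)) (level_conv B hB hBf _ (mul_pos ht.1 hq0))
      ?_ ?_ l hl0 hl1 ?_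
    · have : t * p < ⨆ x, sec A x := by rw [← hp]; nlinarith [ht.2]
      obtain ⟨x, hx⟩ := exists_lt_of_lt_ciSup this
      exact ⟨x, hx.le⟩
    · have : t * q < ⨆ x, sec B x := by rw [← hq]; nlinarith [ht.2]
      obtain ⟨x, hx⟩ := exists_lt_of_lt_ciSup this
      exact ⟨x, hx.le⟩
    · intro x hx y hy
      have hx' : t * p ≤ sec A x := hx
      have hy' : t * q ≤ sec B y := hy
      have h1 := sec_bm A B C hA hB hCf l hl0 hl1 hC x y
        (lt_of_lt_of_le (mul_pos ht.1 hp0) hx') (lt_of_lt_of_le (mul_pos ht.1 hq0) hy')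
      change t * m ≤ sec C ((1 - l) * x + l * y)
      refine le_trans ?_ h1
      rw [hm]
      nlinarith
  have hpn : ENNReal.ofReal p ≠ 0 := by rw [Ne, ENNReal.ofReal_eq_zero, not_le]; exact hp0
  have hqn : ENNReal.ofReal q ≠ 0 := by rw [Ne, ENNReal.ofReal_eq_zero, not_le]; exact hq0
  have hmn : ENNReal.ofReal m ≠ 0 := by rw [Ne, ENNReal.ofReal_eq_zero, not_le]; exact hm0
  have h2 := ENNReal.toReal_mono (ENNReal.div_ne_top hCt hmn) hkey
  rw [ENNReal.toReal_add (ENNReal.mul_ne_top ENNReal.ofReal_ne_top (ENNReal.div_ne_top hAt hpn))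
    (ENNReal.mul_ne_top ENNReal.ofReal_ne_top (ENNReal.div_ne_top hBt hqn)),
    ENNReal.toReal_mul, ENNReal.toReal_mul, ENNReal.toReal_div, ENNReal.toReal_div,
    ENNReal.toReal_div, ENNReal.toReal_ofReal (by linarith), ENNReal.toReal_ofReal hl0.le,
    ENNReal.toReal_ofReal hp0.le, ENNReal.toReal_ofReal hq0.le, ENNReal.toReal_ofReal hm0.le] at h2
  obtain ⟨a, ha⟩ : ∃ a, a = (volume A).toReal := ⟨_, rfl⟩
  obtain ⟨b, hb⟩ : ∃ b, b = (volume B).toReal := ⟨_, rfl⟩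
  obtain ⟨c, hc⟩ : ∃ c, c = (volume C).toReal := ⟨_, rfl⟩
  rw [← ha, ← hb, ← hc] at h2 ⊢
  have ha0 : 0 ≤ a := by rw [ha]; exact ENNReal.toReal_nonneg
  have hb0 : 0 ≤ b := by rw [hb]; exact ENNReal.toReal_nonneg
  obtain ⟨u, hu⟩ : ∃ u, u = Real.sqrt a := ⟨_, rfl⟩
  obtain ⟨v, hv⟩ : ∃ v, v = Real.sqrt b := ⟨_, rfl⟩
  have hu2 : a = u ^ 2 := by rw [hu, Real.sq_sqrt ha0]
  have hv2 : b = v ^ 2 := by rw [hv, Real.sq_sqrt hb0]
  rw [← hu, ← hv]
  rw [le_div_iff₀ hm0, hm, hu2, hv2] at h2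
  refine le_trans ?_ h2
  have h3 : ((1 - l) * (u ^ 2 / p) + l * (v ^ 2 / q)) * ((1 - l) * p + l * q)
      - ((1 - l) * u + l * v) ^ 2 = l * (1 - l) * ((u * q - v * p) ^ 2 / (p * q)) := by
    field_simp
    ring
  have h4 : 0 ≤ l * (1 - l) * ((u * q - v * p) ^ 2 / (p * q)) := by
    have : 0 < 1 - l := by linarith
    positivity
  linarith

end Vale.Agent.P243
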