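import Vale.Agent.P243.Bm2

/-!
Volume of the part of a convex body in a cylinder.
-/

namespace Vale.Agent.P243

open Finset MeasureTheory
open scoped Pointwise ENNReal NNReal

/-- The length of a chord. -/
noncomputable def ch (K : Set ((ℝ × ℝ) × ℝ)) (p : ℝ × ℝ) : ℝ := (volume (Prod.mk p ⁻¹' K)).toReal

/-- Superlevel sets of the chord length. -/
def lev (K : Set ((ℝ × ℝ) × ℝ)) (z : ℝ) : Set (ℝ × ℝ) := {p | z ≤ ch K p}

theorem quad_lintegral (w h a b : ℝ) (hw : 0 ≤ w) (hh : 0 < h) (hab : a ≤ b) :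
    ∫⁻ z in Set.Ioc a b, ENNReal.ofReal (w * (1 - z / h) ^ 2)
      = ENNReal.ofReal (w * h / 3 * ((1 - a / h) ^ 3 - (1 - b / h) ^ 3)) := by
  have hcont : Continuous fun z : ℝ => w * (1 - z / h) ^ 2 := by fun_prop
  rw [← ofReal_integral_eq_lintegral_ofReal
    ((hcont.continuousOn.integrableOn_compact isCompact_Icc).mono_set Set.Ioc_subset_Icc_self)
    (Filter.Eventually.of_forall fun z => by positivity)]
  congr 1
  rw [← intervalIntegral.integral_of_le hab]
  rw [intervalIntegral.integral_eq_sub_of_hasDerivAt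
    (f := fun z => -(w * h / 3) * (1 - z / h) ^ 3) (fun z _ => by
      have h1 : HasDerivAt (fun z : ℝ => 1 - z / h) (-(1 / h)) z := by
        have := (hasDerivAt_id z).div_const h
        simpa using (this.const_sub 1)
      have h2 := (h1.pow 3).const_mul (-(w * h / 3))
      have e : -(w * h / 3) * ((3 : ℕ) * (1 - z / h) ^ (3 - 1) * -(1 / h))
          = w * (1 - z / h) ^ 2 := by
        push_cast
        field_simp
      rw [← e]
      exact h2) (hcont.intervalIntegrable _ _)]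
  ring

theorem ch_conv (K : Set ((ℝ × ℝ) × ℝ)) (hK : Convex ℝ K) (p : ℝ × ℝ) :
    Convex ℝ (Prod.mk p ⁻¹' K) := by
  intro y hy y' hy' a b ha hb hab
  have := hK hy hy' ha hb hab
  have e : a • ((p, y) : (ℝ × ℝ) × ℝ) + b • ((p, y') : (ℝ × ℝ) × ℝ) = (p, a • y + b • y') := by
    ext
    · simp only [Prod.fst_add, Prod.smul_fst, smul_eq_mul, ← add_mul, hab, one_mul]
    · simp only [Prod.fst_add, Prod.snd_add, Prod.smul_fst, Prod.smul_snd, smul_eq_mul, ← add_mul,
        hab, one_mul]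
    · simp
  rw [e] at this
  exact this

theorem ch_fin (K : Set ((ℝ × ℝ) × ℝ)) (hKc : IsCompact K) (p : ℝ × ℝ) :
    volume (Prod.mk p ⁻¹' K) ≠ ∞ := by
  have hc : IsCompact (Prod.snd '' K) := hKc.image continuous_snd
  refine ne_top_of_le_ne_top hc.measure_ne_top (measure_mono ?_)
  intro y hy
  exact ⟨(p, y), hy, rfl⟩

theorem ch_bm (K : Set ((ℝ × ℝ) × ℝ)) (hK : Convex ℝ K) (hKc : IsCompact K) (p q : ℝ × ℝ)
    (hp : (Prod.mk p ⁻¹' K).Nonempty) (hq : (Prod.mk q ⁻¹' K).Nonempty) (l : ℝ)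
    (hl0 : 0 < l) (hl1 : l < 1) :
    (1 - l) * ch K p + l * ch K q ≤ ch K ((1 - l) • p + l • q) := by
  have h1 := bm_one _ _ (Prod.mk ((1 - l) • p + l • q) ⁻¹' K) (ch_conv K hK p) (ch_conv K hK q)
    hp hq l hl0 hl1 (by
      intro a ha b hb
      have := hK ha hb (show 0 ≤ 1 - l by linarith) hl0.le (by ring)
      exact this)
  have h2 := ENNReal.toReal_mono (ch_fin K hKc _) h1
  rw [ENNReal.toReal_add (ENNReal.mul_ne_top ENNReal.ofReal_ne_top (ch_fin K hKc _))
    (ENNReal.mul_ne_top ENNReal.ofReal_ne_top (ch_fin K hKc _)), ENNReal.toReal_mul,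
    ENNReal.toReal_mul, ENNReal.toReal_ofReal (by linarith), ENNReal.toReal_ofReal hl0.le] at h2
  exact h2

theorem ch_pos_ne (K : Set ((ℝ × ℝ) × ℝ)) (p : ℝ × ℝ) (h : 0 < ch K p) :
    (Prod.mk p ⁻¹' K).Nonempty := by
  rw [Set.nonempty_iff_ne_empty]
  intro h'
  rw [ch, h', measure_empty, ENNReal.toReal_zero] at h
  exact lt_irrefl _ h

theorem lev_conv (K : Set ((ℝ × ℝ) × ℝ)) (hK : Convex ℝ K) (hKc : IsCompact K) (z : ℝ)
    (hz : 0 < z) : Convex ℝ (lev K z) := by
  intro x hx y hy a b ha hb hab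
  have hx' : z ≤ ch K x := hx
  have hy' : z ≤ ch K y := hy
  rcases hb.eq_or_lt with h0 | h0
  · rw [← h0] at hab ⊢
    have : a = 1 := by linarith
    rw [this, one_smul, zero_smul, add_zero]; exact hx
  · rcases ha.eq_or_lt with h1 | h1
    · rw [← h1] at hab ⊢
      have : b = 1 := by linarith
      rw [this, one_smul, zero_smul, zero_add]; exact hy
    · have e : a = 1 - b := by linarith
      have h2 := ch_bm K hK hKc x y (ch_pos_ne K x (by linarith)) (ch_pos_ne K y (by linarith))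
        b h0 (by linarith)
      change z ≤ ch K (a • x + b • y)
      rw [e]
      nlinarith

theorem lev_meas (K : Set ((ℝ × ℝ) × ℝ)) (hKc : IsCompact K) (z : ℝ) :
    MeasurableSet (lev K z) := by
  have h1 : Measurable fun p => ch K p :=
    (measurable_measure_prodMk_left hKc.measurableSet).ennreal_toReal
  exact measurableSet_le measurable_const h1

theorem lev_sub (K : Set ((ℝ × ℝ) × ℝ)) (z : ℝ) (hz : 0 < z) : lev K z ⊆ Prod.fst '' K := by
  intro p hp
  have hp' : z ≤ ch K p := hp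
  obtain ⟨y, hy⟩ := ch_pos_ne K p (by linarith)
  exact ⟨(p, y), hy, rfl⟩

/-- Brunn-Minkowski for the superlevel sets. -/
theorem lev_bm (K : Set ((ℝ × ℝ) × ℝ)) (hK : Convex ℝ K) (hKc : IsCompact K)
    (hO : volume (Prod.fst '' K) ≠ 0) (z z' : ℝ) (hz : 0 < z) (hzz : z < z')
    (hpos : volume (lev K z') ≠ 0) :
    ((1 - z / z') * Real.sqrt (volume (Prod.fst '' K)).toReal
      + z / z' * Real.sqrt (volume (lev K z')).toReal) ^ 2 ≤ (volume (lev K z)).toReal := by
  have hOc : IsCompact (Prod.fst '' K) := hKc.image continuous_fst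
  have hOcv : Convex ℝ (Prod.fst '' K) := hK.linear_image (LinearMap.fst ℝ (ℝ × ℝ) ℝ)
  have hz' : 0 < z' := hz.trans hzz
  have hsecO : ∀ x, volume (Prod.mk x ⁻¹' (Prod.fst '' K)) ≤ volume (Prod.snd '' (Prod.fst '' K)) :=
    fun x => measure_mono fun y hy => ⟨(x, y), hy, rfl⟩
  have hcf : volume (Prod.snd '' (Prod.fst '' K)) ≠ ∞ :=
    (hOc.image continuous_snd).measure_ne_top
  have hfin : ∀ A ⊆ Prod.fst '' K, ∀ x, volume (Prod.mk x ⁻¹' A) ≠ ∞ := fun A hA x =>
    ne_top_of_le_ne_top hcf ((measure_mono (Set.preimage_mono hA)).trans (hsecO x))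
  have hbd : ∀ A ⊆ Prod.fst '' K, ∀ x, sec A x ≤ (volume (Prod.snd '' (Prod.fst '' K))).toReal :=
    fun A hA x => ENNReal.toReal_mono hcf ((measure_mono (Set.preimage_mono hA)).trans (hsecO x))
  have hl0 : 0 < z / z' := div_pos hz hz'
  have hl1 : z / z' < 1 := by rw [div_lt_one hz']; exact hzz
  refine bm_two (Prod.fst '' K) (lev K z') (lev K z) hOcv (lev_conv K hK hKc z' hz')
    hOc.measurableSet (lev_meas K hKc z') (lev_meas K hKc z) (hfin _ subset_rfl)
    (hfin _ (lev_sub K z' hz')) (hfin _ (lev_sub K z hz)) _ (hbd _ subset_rfl)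
    (hbd _ (lev_sub K z' hz')) (z / z') hl0 hl1 ?_ hO hpos hOc.measure_ne_top
    (ne_top_of_le_ne_top hOc.measure_ne_top (measure_mono (lev_sub K z' hz')))
    (ne_top_of_le_ne_top hOc.measure_ne_top (measure_mono (lev_sub K z hz)))
  rintro p ⟨⟨p', y⟩, hy, rfl⟩ q hq
  have hq' : z' ≤ ch K q := hq
  have h1 := ch_bm K hK hKc p' q ⟨y, hy⟩ (ch_pos_ne K q (by linarith)) (z / z') hl0 hl1
  change z ≤ ch K ((1 - z / z') • p' + (z / z') • q)
  refine le_trans ?_ h1
  have h2 : 0 ≤ (1 - z / z') * ch K p' :=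
    mul_nonneg (by linarith) ENNReal.toReal_nonneg
  have h3 : z = z / z' * z' := by field_simp
  have h4 : z / z' * z' ≤ z / z' * ch K q := mul_le_mul_of_nonneg_left hq' hl0.le
  linarith

end Vale.Agent.P243
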