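import Vale.Agent.P243.Cap

/-!
Volume of the part of a convex body in a cylinder, second part.
-/

namespace Vale.Agent.P243

open Finset MeasureTheory
open scoped Pointwise ENNReal NNReal

theorem slice_lintegral (K : Set ((ℝ × ℝ) × ℝ)) (hKc : IsCompact K) (B : Set (ℝ × ℝ))
    (mB : MeasurableSet B) :
    volume (K ∩ Prod.fst ⁻¹' B)
      = ∫⁻ z in Set.Ioi (0 : ℝ), (volume.restrict B) (lev K z) := by
  have hmeas : Measurable fun p => ch K p :=
    (measurable_measure_prodMk_left hKc.measurableSet).ennreal_toReal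
  have h1 := lintegral_eq_lintegral_meas_le ((volume : Measure (ℝ × ℝ)).restrict B)
    (f := fun p => ch K p) (Filter.Eventually.of_forall fun p => ENNReal.toReal_nonneg)
    hmeas.aemeasurable
  have h2 : volume (K ∩ Prod.fst ⁻¹' B) = ∫⁻ p in B, ENNReal.ofReal (ch K p) := by
    rw [Measure.volume_eq_prod, Measure.prod_apply
      (hKc.measurableSet.inter (measurable_fst mB)), ← lintegral_indicator mB]
    refine lintegral_congr fun p => ?_
    by_cases hp : p ∈ B
    · rw [Set.indicator_of_mem hp, ch, ENNReal.ofReal_toReal (ch_fin K hKc p)]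
      congr 1
      ext y
      constructor
      · intro hy; exact hy.1
      · intro hy; exact ⟨hy, hp⟩
    · rw [Set.indicator_of_notMem hp]
      have : Prod.mk p ⁻¹' (K ∩ Prod.fst ⁻¹' B) = (∅ : Set ℝ) := by
        rw [Set.eq_empty_iff_forall_notMem]
        intro y hy
        exact hp hy.2
      rw [this, measure_empty]
  rw [h2, h1]
  rfl

theorem split_lintegral (f : ℝ → ℝ≥0∞) (a t : ℝ) (ht : a ≤ t) :
    (∫⁻ z in Set.Ioi a, f z) = (∫⁻ z in Set.Ioc a t, f z) + ∫⁻ z in Set.Ioi t, f z := by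
  have hd : Disjoint (Set.Ioc a t) (Set.Ioi t) := by
    rw [Set.disjoint_left]
    intro x hx1 hx2
    exact absurd hx1.2 (not_le.mpr hx2)
  rw [← Set.Ioc_union_Ioi_eq_Ioi ht]
  exact lintegral_union measurableSet_Ioi hd

theorem cyl_split (K : Set ((ℝ × ℝ) × ℝ)) (hKc : IsCompact K) (B : Set (ℝ × ℝ))
    (mB : MeasurableSet B) (t : ℝ) (ht : 0 ≤ t) :
    volume (K ∩ Prod.fst ⁻¹' B)
      ≤ ENNReal.ofReal t * volume B + ∫⁻ z in Set.Ioi t, volume (lev K z) := by
  rw [slice_lintegral K hKc B mB, split_lintegral _ 0 t ht]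
  refine add_le_add ?_ ?_
  · calc ∫⁻ z in Set.Ioc 0 t, (volume.restrict B) (lev K z)
        ≤ ∫⁻ _ in Set.Ioc 0 t, volume B := by
          refine lintegral_mono fun z => ?_
          refine (measure_mono (Set.subset_univ _)).trans ?_
          rw [Measure.restrict_apply_univ]
      _ = ENNReal.ofReal t * volume B := by
          rw [setLIntegral_const, Real.volume_Ioc, sub_zero, mul_comm]
  · exact lintegral_mono fun z => Measure.restrict_apply_le _ _

theorem cap (K : Set ((ℝ × ℝ) × ℝ)) (hK : Convex ℝ K) (hKc : IsCompact K)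
    (hO : volume (Prod.fst '' K) ≠ 0) (hV : volume K ≠ 0) (V w h t : ℝ)
    (hVd : V = (volume K).toReal) (hw : w = (volume (Prod.fst '' K)).toReal)
    (hh : h = 3 * V / w) (ht0 : 0 < t) (hth : t < h) :
    ∫⁻ z in Set.Ioi t, volume (lev K z) ≤ ENNReal.ofReal (V * (1 - t / h) ^ 3) := by
  have hOt : volume (Prod.fst '' K) ≠ ∞ := (hKc.image continuous_fst).measure_ne_top
  have hVt : volume K ≠ ∞ := hKc.measure_ne_top
  have hw0 : 0 < w := by rw [hw]; exact ENNReal.toReal_pos hO hOt
  have hV0 : 0 < V := by rw [hVd]; exact ENNReal.toReal_pos hV hVt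
  have hh0 : 0 < h := ht0.trans hth
  have hwh : w * h / 3 = V := by rw [hh]; field_simp
  have hSf : ∀ z, 0 < z → volume (lev K z) ≠ ∞ := fun z hz =>
    ne_top_of_le_ne_top hOt (measure_mono (lev_sub K z hz))
  by_cases hc : ∀ z, t < z →
      volume (lev K z) ≤ ENNReal.ofReal (w * (max 0 (1 - z / h)) ^ 2)
  · -- first case
    calc ∫⁻ z in Set.Ioi t, volume (lev K z)
        ≤ ∫⁻ z in Set.Ioi t, ENNReal.ofReal (w * (max 0 (1 - z / h)) ^ 2) :=
          setLIntegral_mono' measurableSet_Ioi fun z hz => hc z hz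
      _ = (∫⁻ z in Set.Ioc t h, ENNReal.ofReal (w * (max 0 (1 - z / h)) ^ 2))
          + ∫⁻ z in Set.Ioi h, ENNReal.ofReal (w * (max 0 (1 - z / h)) ^ 2) :=
          split_lintegral _ t h hth.le
      _ = (∫⁻ z in Set.Ioc t h, ENNReal.ofReal (w * (1 - z / h) ^ 2)) + 0 := by
          congr 1
          · refine setLIntegral_congr_fun measurableSet_Ioc fun z hz => ?_
            have : 0 ≤ 1 - z / h := by
              rw [sub_nonneg, div_le_one hh0]; exact hz.2
            simp only [max_eq_right this]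
          · rw [setLIntegral_congr_fun (g := fun _ => 0) measurableSet_Ioi (by
              intro z hz
              have h1 : h < z := hz
              have : 1 - z / h ≤ 0 := by
                rw [sub_nonpos, one_le_div hh0]; exact h1.le
              simp only [max_eq_left this]
              simp)]
            simp
      _ = ENNReal.ofReal (V * (1 - t / h) ^ 3) := by
          rw [add_zero, quad_lintegral w h t h hw0.le hh0 hth.le, div_self hh0.ne', hwh]
          congr 1
          ring
  · push Not at hc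
    obtain ⟨z', hz', hS⟩ := hc
    have hz'0 : 0 < z' := ht0.trans hz'
    have hSne : volume (lev K z') ≠ 0 := (lt_of_le_of_lt bot_le hS).ne'
    obtain ⟨s, hs⟩ : ∃ s, s = (volume (lev K z')).toReal := ⟨_, rfl⟩
    have hs2 : w * (max 0 (1 - z' / h)) ^ 2 ≤ s := by
      rw [hs]
      refine (ENNReal.ofReal_le_iff_le_toReal (hSf z' hz'0)).mp hS.le
    have hlow : ∀ z ∈ Set.Ioc (0 : ℝ) t,
        ENNReal.ofReal (w * (1 - z / h) ^ 2) ≤ volume (lev K z) := by
      intro z hz
      rw [ENNReal.ofReal_le_iff_le_toReal (hSf z hz.1)]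
      have h1 := lev_bm K hK hKc hO z z' hz.1 (lt_of_le_of_lt hz.2 hz') hSne
      refine le_trans ?_ h1
      rw [← hw, ← hs]
      have h2 : Real.sqrt w * (1 - z' / h) ≤ Real.sqrt s := by
        calc Real.sqrt w * (1 - z' / h) ≤ Real.sqrt w * max 0 (1 - z' / h) :=
              mul_le_mul_of_nonneg_left (le_max_right _ _) (Real.sqrt_nonneg _)
          _ = Real.sqrt (w * (max 0 (1 - z' / h)) ^ 2) := by
              rw [Real.sqrt_mul hw0.le, Real.sqrt_sq (le_max_left _ _)]
          _ ≤ Real.sqrt s := Real.sqrt_le_sqrt hs2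
      have h3 : 0 ≤ 1 - z / h := by
        rw [sub_nonneg, div_le_one hh0]; linarith [hz.2]
      have h4 : Real.sqrt w * (1 - z / h)
          ≤ (1 - z / z') * Real.sqrt w + z / z' * Real.sqrt s := by
        have h5 : z / z' * (Real.sqrt w * (1 - z' / h)) ≤ z / z' * Real.sqrt s :=
          mul_le_mul_of_nonneg_left h2 (div_nonneg hz.1.le hz'0.le)
        have h6 : z / z' * (Real.sqrt w * (1 - z' / h))
            = Real.sqrt w * (z / z') - Real.sqrt w * (z / h) := by
          field_simp
        rw [h6] at h5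
        linarith
      calc w * (1 - z / h) ^ 2 = (Real.sqrt w * (1 - z / h)) ^ 2 := by
            rw [mul_pow, Real.sq_sqrt hw0.le]
        _ ≤ _ := pow_le_pow_left₀ (mul_nonneg (Real.sqrt_nonneg _) h3) h4 2
    have htot : volume K = (∫⁻ z in Set.Ioc 0 t, volume (lev K z))
        + ∫⁻ z in Set.Ioi t, volume (lev K z) := by
      have h1 := slice_lintegral K hKc Set.univ MeasurableSet.univ
      rw [Set.preimage_univ, Set.inter_univ, Measure.restrict_univ] at h1
      rw [h1]
      exact split_lintegral _ 0 t ht0.le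
    have hI : ENNReal.ofReal (V * (1 - (1 - t / h) ^ 3))
        ≤ ∫⁻ z in Set.Ioc 0 t, volume (lev K z) := by
      have h1 := quad_lintegral w h 0 t hw0.le hh0 ht0.le
      rw [hwh, zero_div, sub_zero, one_pow] at h1
      rw [← h1]
      exact setLIntegral_mono' measurableSet_Ioc hlow
    have hq0 : 0 ≤ t / h := by positivity
    have hq1 : t / h ≤ 1 := by rw [div_le_one hh0]; exact hth.le
    have hq3 : (1 - t / h) ^ 3 ≤ 1 := pow_le_one₀ (by linarith) (by linarith)
    have hVe : volume K = ENNReal.ofReal (V * (1 - (1 - t / h) ^ 3))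
        + ENNReal.ofReal (V * (1 - t / h) ^ 3) := by
      rw [← ENNReal.ofReal_add (mul_nonneg hV0.le (by linarith))
        (mul_nonneg hV0.le (pow_nonneg (by linarith) 3))]
      rw [← mul_add]
      have : (1 - (1 - t / h) ^ 3 + (1 - t / h) ^ 3) = (1 : ℝ) := by ring
      rw [this, mul_one, hVd, ENNReal.ofReal_toReal hVt]
    have h7 : ENNReal.ofReal (V * (1 - (1 - t / h) ^ 3)) + ∫⁻ z in Set.Ioi t, volume (lev K z)
        ≤ ENNReal.ofReal (V * (1 - (1 - t / h) ^ 3)) + ENNReal.ofReal (V * (1 - t / h) ^ 3) := by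
      rw [← hVe, htot]
      exact add_le_add hI le_rfl
    exact (ENNReal.add_le_add_iff_left ENNReal.ofReal_ne_top).mp h7

/-- The part of a convex body in a cylinder over a base of relative area `s`. -/
theorem cyl_bound (K : Set ((ℝ × ℝ) × ℝ)) (hK : Convex ℝ K) (hKc : IsCompact K)
    (hO : volume (Prod.fst '' K) ≠ 0) (hV : volume K ≠ 0) (B : Set (ℝ × ℝ))
    (mB : MeasurableSet B) (c : ℝ) (hc0 : 0 < c) (hc1 : c < 1) :
    volume (K ∩ Prod.fst ⁻¹' B)
      ≤ (ENNReal.ofReal (3 * (1 - c)) * (volume B / volume (Prod.fst '' K))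
        + ENNReal.ofReal (c ^ 3)) * volume K := by
  have hOt : volume (Prod.fst '' K) ≠ ∞ := (hKc.image continuous_fst).measure_ne_top
  have hVt : volume K ≠ ∞ := hKc.measure_ne_top
  obtain ⟨V, hVd⟩ : ∃ V, V = (volume K).toReal := ⟨_, rfl⟩
  obtain ⟨w, hw⟩ : ∃ w, w = (volume (Prod.fst '' K)).toReal := ⟨_, rfl⟩
  have hw0 : 0 < w := by rw [hw]; exact ENNReal.toReal_pos hO hOt
  have hV0 : 0 < V := by rw [hVd]; exact ENNReal.toReal_pos hV hVt
  have hVe : volume K = ENNReal.ofReal V := by rw [hVd, ENNReal.ofReal_toReal hVt]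
  have hwe : volume (Prod.fst '' K) = ENNReal.ofReal w := by rw [hw, ENNReal.ofReal_toReal hOt]
  have h0 : 0 < 3 * V / w := by positivity
  have ht0 : 0 < 3 * V / w * (1 - c) := mul_pos h0 (by linarith)
  have hth : 3 * V / w * (1 - c) < 3 * V / w := by nlinarith
  have h1 := cyl_split K hKc B mB _ ht0.le
  have h2 := cap K hK hKc hO hV V w _ _ hVd hw rfl ht0 hth
  refine h1.trans ((add_le_add le_rfl h2).trans (le_of_eq ?_))
  have e1 : 1 - 3 * V / w * (1 - c) / (3 * V / w) = c := by
    field_simp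
    ring
  have e3 : ENNReal.ofReal (V * c ^ 3) = ENNReal.ofReal (c ^ 3) * ENNReal.ofReal V := by
    rw [← ENNReal.ofReal_mul (by positivity), mul_comm]
  rw [e1, hVe, hwe, add_mul, e3]
  congr 1
  have e2 : ENNReal.ofReal (3 * V / w * (1 - c))
      = ENNReal.ofReal (3 * (1 - c)) * ENNReal.ofReal V / ENNReal.ofReal w := by
    rw [← ENNReal.ofReal_mul (by nlinarith), ← ENNReal.ofReal_div_of_pos hw0]
    congr 1
    ring
  rw [e2]
  simp only [div_eq_mul_inv]
  ring

end Vale.Agent.P243
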