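import Vale.Agent.P243.Plank

/-!
Coverings of a planar convex set by families of parallel lines.
-/

namespace Vale.Agent.P243

open Finset MeasureTheory
open scoped Pointwise ENNReal NNReal

variable {V : Type*} [NormedAddCommGroup V] [InnerProductSpace ℝ V]

theorem cell_mem (η : ℝ) (hη : 0 < η) (s : ℝ) (k : ℤ) :
    s ∈ Set.Ico ((k : ℝ) * η) (((k : ℝ) + 1) * η) ↔ ⌊s / η⌋ = k := by
  rw [Int.floor_eq_iff, Set.mem_Ico, le_div_iff₀ hη, div_lt_iff₀ hη]

theorem cells_le (U : Set ℝ) (η : ℝ) (hη : 0 < η) (J : Finset ℤ)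
    (hJ : ∀ k ∈ J, Set.Ico ((k : ℝ) * η) (((k : ℝ) + 1) * η) ⊆ U) :
    (J.card : ℝ≥0∞) * ENNReal.ofReal η ≤ volume U := by
  have hd : Set.PairwiseDisjoint (J : Set ℤ)
      (fun k : ℤ => Set.Ico ((k : ℝ) * η) (((k : ℝ) + 1) * η)) := by
    intro k _ l _ hkl
    rw [Function.onFun, Set.disjoint_left]
    intro s hs1 hs2
    rw [cell_mem η hη] at hs1 hs2
    exact hkl (hs1.symm.trans hs2)
  have h1 : volume (⋃ k ∈ J, Set.Ico ((k : ℝ) * η) (((k : ℝ) + 1) * η))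
      = ∑ k ∈ J, volume (Set.Ico ((k : ℝ) * η) (((k : ℝ) + 1) * η)) :=
    measure_biUnion_finset hd (fun _ _ => measurableSet_Ico)
  have h2 : ∑ k ∈ J, volume (Set.Ico ((k : ℝ) * η) (((k : ℝ) + 1) * η))
      = (J.card : ℝ≥0∞) * ENNReal.ofReal η := by
    rw [Finset.sum_congr rfl (fun k _ => by
      rw [Real.volume_Ico, show ((k : ℝ) + 1) * η - (k : ℝ) * η = η by ring]),
      Finset.sum_const, nsmul_eq_mul]
  rw [← h2, ← h1]
  exact measure_mono (Set.iUnion₂_subset hJ)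

theorem line_cover_open [CompleteSpace V] (e : V) (he : ‖e‖ = 1) (h : ℝ) (m : ℕ) (C : Set V)
    (hC : Convex ℝ C) (hCc : IsCompact C) (hCe : ∀ x ∈ C, inner ℝ e x = h) (w : ℝ)
    (hwid : ∀ v : V, ‖v‖ = 1 → inner ℝ e v = 0 → ∃ x ∈ C, ∃ y ∈ C, w ≤ inner ℝ v (x - y))
    (hne : C.Nonempty) (v : Fin m → V) (hv : ∀ i, ‖v i‖ = 1) (hve : ∀ i, inner ℝ e (v i) = 0)
    (U : Fin m → Set ℝ) (hU : ∀ i, IsOpen (U i)) (hcov : ∀ x ∈ C, ∃ i, inner ℝ (v i) x ∈ U i) :
    ENNReal.ofReal w ≤ ∑ i, volume (U i) := by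
  classical
  have hop : ∀ i, IsOpen {x : V | inner ℝ (v i) x ∈ U i} := fun i =>
    (hU i).preimage (by fun_prop : Continuous fun x : V => (inner ℝ (v i) x : ℝ))
  obtain ⟨δ, hδ, hleb⟩ := lebesgue_number_lemma_of_metric hCc hop (by
    intro x hx
    obtain ⟨i, hi⟩ := hcov x hx
    exact Set.mem_iUnion.mpr ⟨i, hi⟩)
  obtain ⟨η, hη⟩ : ∃ η, η = δ / 2 := ⟨_, rfl⟩
  have hη0 : 0 < η := by rw [hη]; positivity
  obtain ⟨R, hR⟩ := hCc.isBounded.exists_norm_le
  obtain ⟨K, hK⟩ := exists_nat_gt (R / η)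
  have hcell : ∀ x ∈ C, ∃ i, Set.Ico ((⌊inner ℝ (v i) x / η⌋ : ℝ) * η)
      (((⌊inner ℝ (v i) x / η⌋ : ℝ) + 1) * η) ⊆ U i := by
    intro x hx
    obtain ⟨i, hi⟩ := hleb x hx
    refine ⟨i, fun s hs => ?_⟩
    obtain ⟨a, ha⟩ : ∃ a, a = inner ℝ (v i) x := ⟨_, rfl⟩
    have hfl := (cell_mem η hη0 a ⌊a / η⌋).mpr rfl
    rw [← ha] at hs
    have h1 : |s - a| < δ := by
      have e1 := hs.1
      have e2 := hs.2
      have e3 := hfl.1
      have e4 := hfl.2
      rw [abs_lt]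
      constructor <;> nlinarith
    have h2 : x + (s - a) • v i ∈ Metric.ball x δ := by
      rw [Metric.mem_ball, dist_eq_norm, add_sub_cancel_left, norm_smul, hv i, mul_one,
        Real.norm_eq_abs]
      exact h1
    have h3 : inner ℝ (v i) (x + (s - a) • v i) ∈ U i := hi h2
    have h4 : inner ℝ (v i) (x + (s - a) • v i) = s := by
      rw [inner_add_right, inner_smul_right, real_inner_self_eq_norm_sq, hv i, ← ha]
      ring
    rw [h4] at h3
    exact h3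
  obtain ⟨J, hJ⟩ : ∃ J : Fin m → Finset ℤ, J = fun i =>
      (Finset.Icc (-(K : ℤ) - 1) (K : ℤ)).filter (fun k : ℤ => Set.Ico ((k : ℝ) * η) (((k : ℝ) + 1) * η) ⊆ U i) := ⟨_, rfl⟩
  have hJsub : ∀ i, ∀ k ∈ J i, Set.Ico ((k : ℝ) * η) (((k : ℝ) + 1) * η) ⊆ U i := by
    intro i k hk
    rw [hJ] at hk
    exact (Finset.mem_filter.mp hk).2
  obtain ⟨Q, hQ⟩ : ∃ Q : Finset (Σ _ : Fin m, ℤ), Q = Finset.univ.sigma J := ⟨_, rfl⟩
  have hQcard : (Q.card : ℝ≥0∞) * ENNReal.ofReal η ≤ ∑ i, volume (U i) := by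
    rw [hQ, Finset.card_sigma]
    push_cast
    rw [Finset.sum_mul]
    exact Finset.sum_le_sum fun i _ => cells_le (U i) η hη0 (J i) (hJsub i)
  have hfloor : ∀ x ∈ C, ∀ i, ⌊inner ℝ (v i) x / η⌋ ∈ Finset.Icc (-(K : ℤ) - 1) K := by
    intro x hx i
    have h1 : |inner ℝ (v i) x| ≤ R := by
      have := abs_real_inner_le_norm (v i) x
      rw [hv i, one_mul] at this
      exact this.trans (hR x hx)
    have h2 : |inner ℝ (v i) x / η| < K := by
      rw [abs_div, abs_of_pos hη0]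
      exact lt_of_le_of_lt (div_le_div_of_nonneg_right h1 hη0.le) hK
    rw [abs_lt] at h2
    rw [Finset.mem_Icc]
    constructor
    · rw [Int.le_floor]
      push_cast
      linarith
    · have h3 : (⌊inner ℝ (v i) x / η⌋ : ℝ) < K := lt_of_le_of_lt (Int.floor_le _) h2.2
      have h4 : ⌊inner ℝ (v i) x / η⌋ < (K : ℤ) := by exact_mod_cast h3
      exact h4.le
  obtain ⟨eq⟩ : Nonempty (Fin Q.card ≃ Q) := ⟨Q.equivFin.symm⟩
  have hw : w ≤ (Q.card : ℝ) * η := by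
    apply le_of_forall_pos_le_add
    intro ε hε
    obtain ⟨τ, hτ⟩ : ∃ τ, τ = ε / (2 * (Q.card + 1)) := ⟨_, rfl⟩
    have hτ0 : 0 < τ := by rw [hτ]; positivity
    have h1 := plank e he h Q.card C hC hCc hCe w hwid hne
      (fun j => v (eq j).1.1) (fun _ => η / 2 + τ) (fun j => (((eq j).1.2 : ℝ) + 1 / 2) * η)
      (fun j => hv _) (fun j => hve _) (fun _ => by positivity) (by
        intro x hx
        obtain ⟨i, hi⟩ := hcell x hx
        have hmem : (⟨i, ⌊inner ℝ (v i) x / η⌋⟩ : Σ _ : Fin m, ℤ) ∈ Q := by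
          rw [hQ, Finset.mem_sigma]
          refine ⟨Finset.mem_univ _, ?_⟩
          rw [hJ]
          exact Finset.mem_filter.mpr ⟨hfloor x hx i, hi⟩
        refine ⟨eq.symm ⟨_, hmem⟩, ?_⟩
        rw [Equiv.apply_symm_apply]
        simp only
        obtain ⟨a, ha⟩ : ∃ a, a = inner ℝ (v i) x := ⟨_, rfl⟩
        rw [← ha]
        have hfl := (cell_mem η hη0 a ⌊a / η⌋).mpr rfl
        rw [abs_lt]
        have e3 := hfl.1
        have e4 := hfl.2
        constructor <;> nlinarith)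
    rw [Finset.sum_const, Finset.card_univ, Fintype.card_fin, nsmul_eq_mul] at h1
    have h2 : (Q.card : ℝ) * (2 * τ) ≤ ε := by
      rw [hτ]
      have : (Q.card : ℝ) * (2 * (ε / (2 * (Q.card + 1)))) = ε * (Q.card / (Q.card + 1)) := by
        field_simp
      rw [this]
      apply mul_le_of_le_one_right hε.le
      rw [div_le_one (by positivity)]
      linarith
    calc w ≤ (Q.card : ℝ) * (2 * (η / 2 + τ)) := h1
      _ = (Q.card : ℝ) * η + (Q.card : ℝ) * (2 * τ) := by ring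
      _ ≤ (Q.card : ℝ) * η + ε := by linarith
  calc ENNReal.ofReal w ≤ ENNReal.ofReal ((Q.card : ℝ) * η) := ENNReal.ofReal_le_ofReal hw
    _ = (Q.card : ℝ≥0∞) * ENNReal.ofReal η := by
        rw [ENNReal.ofReal_mul (by positivity), ENNReal.ofReal_natCast]
    _ ≤ _ := hQcard

/-- A planar convex set of minimal width `w` cannot be covered by families of parallel lines of
total measure less than `w`. -/
theorem line_cover [CompleteSpace V] (e : V) (he : ‖e‖ = 1) (h : ℝ) (m : ℕ) (C : Set V)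
    (hC : Convex ℝ C) (hCc : IsCompact C) (hCe : ∀ x ∈ C, inner ℝ e x = h) (w : ℝ)
    (hwid : ∀ v : V, ‖v‖ = 1 → inner ℝ e v = 0 → ∃ x ∈ C, ∃ y ∈ C, w ≤ inner ℝ v (x - y))
    (hne : C.Nonempty) (v : Fin m → V) (hv : ∀ i, ‖v i‖ = 1) (hve : ∀ i, inner ℝ e (v i) = 0)
    (T : Fin m → Set ℝ) (hcov : ∀ x ∈ C, ∃ i, inner ℝ (v i) x ∈ T i) :
    ENNReal.ofReal w ≤ ∑ i, volume (T i) := by
  apply ENNReal.le_of_forall_pos_le_add
  intro ε hε _
  obtain ⟨δ, hδ⟩ : ∃ δ : ℝ≥0, δ = ε / (m + 1) := ⟨_, rfl⟩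
  have hδ0 : (δ : ℝ≥0∞) ≠ 0 := by
    rw [hδ]
    have : 0 < ε / (m + 1) := by positivity
    exact_mod_cast this.ne'
  have h1 : ∀ i, ∃ U ⊇ T i, IsOpen U ∧ volume U ≤ volume (T i) + δ := fun i =>
    (T i).exists_isOpen_le_add volume hδ0
  choose U hTU hUo hUv using h1
  have h2 := line_cover_open e he h m C hC hCc hCe w hwid hne v hv hve U hUo (by
    intro x hx
    obtain ⟨i, hi⟩ := hcov x hx
    exact ⟨i, hTU i hi⟩)
  refine h2.trans ((Finset.sum_le_sum fun i _ => hUv i).trans ?_)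
  rw [Finset.sum_add_distrib]
  apply add_le_add le_rfl
  rw [Finset.sum_const, Finset.card_univ, Fintype.card_fin, nsmul_eq_mul]
  have h3 : (m : ℝ≥0) * δ ≤ ε := by
    rw [hδ, mul_div_assoc', div_le_iff₀ (by positivity), mul_comm]
    exact mul_le_mul_of_nonneg_left (by simp) (by positivity)
  exact_mod_cast h3

end Vale.Agent.P243
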