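import Vale.Agent.P243.Select

/-!
The half-area bound for cylinders with axes parallel to a common plane.
-/

namespace Vale.Agent.P243

open Finset MeasureTheory
open scoped Pointwise ENNReal NNReal

/-- The reflection of the coordinate plane used to change orthonormal coordinates. -/
noncomputable def refl (p q : ℝ) : (ℝ × ℝ) →ₗ[ℝ] (ℝ × ℝ) where
  toFun z := (-q * z.1 + p * z.2, p * z.1 + q * z.2)
  map_add' z w := by
    ext
    · simp only [Prod.fst_add, Prod.snd_add]; ring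
    · simp only [Prod.fst_add, Prod.snd_add]; ring
  map_smul' r z := by
    ext
    · simp only [Prod.smul_fst, Prod.smul_snd, smul_eq_mul, RingHom.id_apply]; ring
    · simp only [Prod.smul_fst, Prod.smul_snd, smul_eq_mul, RingHom.id_apply]; ring

theorem refl_refl (p q : ℝ) (h : p ^ 2 + q ^ 2 = 1) (z : ℝ × ℝ) : refl p q (refl p q z) = z := by
  have e1 : -q * (-q * z.1 + p * z.2) + p * (p * z.1 + q * z.2) = (p ^ 2 + q ^ 2) * z.1 := by ring
  have e2 : p * (-q * z.1 + p * z.2) + q * (p * z.1 + q * z.2) = (p ^ 2 + q ^ 2) * z.2 := by ring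
  ext
  · change -q * (-q * z.1 + p * z.2) + p * (p * z.1 + q * z.2) = z.1
    rw [e1, h, one_mul]
  · change p * (-q * z.1 + p * z.2) + q * (p * z.1 + q * z.2) = z.2
    rw [e2, h, one_mul]

theorem volume_refl (p q : ℝ) (h : p ^ 2 + q ^ 2 = 1) (B : Set (ℝ × ℝ)) :
    volume (refl p q ⁻¹' B) = volume B := by
  have h1 : (refl p q).comp (refl p q) = LinearMap.id := by
    apply LinearMap.ext
    intro z
    rw [LinearMap.comp_apply, refl_refl p q h, LinearMap.id_apply]
  have h2 : LinearMap.det (refl p q) * LinearMap.det (refl p q) = 1 := by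
    rw [← LinearMap.det_comp, h1, LinearMap.det_id]
  have h3 : LinearMap.det (refl p q) ≠ 0 := by
    intro h0
    rw [h0, mul_zero] at h2
    exact zero_ne_one h2
  have h4 : |(LinearMap.det (refl p q))⁻¹| = 1 := by
    have : |LinearMap.det (refl p q)| * |LinearMap.det (refl p q)| = 1 := by
      rw [← abs_mul, h2, abs_one]
    have h5 : |LinearMap.det (refl p q)| = 1 := by
      nlinarith [abs_nonneg (LinearMap.det (refl p q))]
    rw [abs_inv, h5, inv_one]
  rw [Measure.addHaar_preimage_linearMap volume h3, h4, ENNReal.ofReal_one, one_mul]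

theorem half_area {V : Type*} [NormedAddCommGroup V] [InnerProductSpace ℝ V] [CompleteSpace V]
    (K : Set V) (hK : Convex ℝ K) (hKc : IsCompact K) (hKi : (interior K).Nonempty) (e : V)
    (he : ‖e‖ = 1) (m : ℕ)
    (v : Fin m → V) (hv : ∀ i, ‖v i‖ = 1) (hve : ∀ i, inner ℝ e (v i) = 0)
    (B : Fin m → Set (ℝ × ℝ)) (hB : ∀ i, MeasurableSet (B i))
    (hcov : ∀ x ∈ K, ∃ i, (inner ℝ (v i) x, inner ℝ e x) ∈ B i)
    (A : ℝ≥0∞) (hA : ∀ u : V, ‖u‖ = 1 → inner ℝ e u = 0 →
      A ≤ volume ((fun x : V => ((inner ℝ u x : ℝ), (inner ℝ e x : ℝ))) '' K)) :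
    A ≤ 2 * ∑ i, volume (B i) := by
  by_cases hfin : ∑ i, volume (B i) = ∞
  · rw [hfin, ENNReal.mul_top (by norm_num)]
    exact le_top
  obtain ⟨σ, hσ⟩ : ∃ σ : ℝ, σ = (∑ i, volume (B i)).toReal := ⟨_, rfl⟩
  have hσ0 : 0 ≤ σ := by rw [hσ]; exact ENNReal.toReal_nonneg
  have hσe : ∑ i, volume (B i) = ENNReal.ofReal σ := by rw [hσ, ENNReal.ofReal_toReal hfin]
  obtain ⟨x0, hx0⟩ := hKi
  have hne : K.Nonempty := ⟨x0, interior_subset hx0⟩
  have hcont : ContinuousOn (fun x : V => (inner ℝ e x : ℝ)) K := by fun_prop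
  obtain ⟨xa, hxa, hmin⟩ := hKc.exists_isMinOn hne hcont
  obtain ⟨xb, hxb, hmax⟩ := hKc.exists_isMaxOn hne hcont
  obtain ⟨α, hα⟩ : ∃ α : ℝ, α = inner ℝ e xa := ⟨_, rfl⟩
  obtain ⟨β, hβ⟩ : ∃ β : ℝ, β = inner ℝ e xb := ⟨_, rfl⟩
  have hrange : ∀ x ∈ K, (inner ℝ e x : ℝ) ∈ Set.Icc α β := by
    intro x hx
    rw [hα, hβ]
    exact ⟨hmin hx, hmax hx⟩
  have hαβ : α < β := by
    rw [mem_interior_iff_mem_nhds, Metric.mem_nhds_iff] at hx0
    obtain ⟨ε, hε, hball⟩ := hx0
    have hin : ∀ t : ℝ, |t| < ε → x0 + t • e ∈ K := by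
      intro t ht
      apply hball
      rw [Metric.mem_ball, dist_eq_norm, add_sub_cancel_left, norm_smul, he, mul_one,
        Real.norm_eq_abs]
      exact ht
    have h1 := (hrange _ (hin (ε / 2) (by rw [abs_of_pos (by positivity)]; linarith))).2
    have h2 := (hrange _ (hin (-(ε / 2)) (by
      rw [abs_neg, abs_of_pos (by positivity)]; linarith))).1
    rw [inner_add_right, inner_smul_right, real_inner_self_eq_norm_sq, he] at h1 h2
    linarith
  have hd : 0 < β - α := by linarith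
  have hkey : ∀ δ : ℝ, 0 < δ → A ≤ ENNReal.ofReal (2 * σ + δ) := by
    intro δ hδ
    obtain ⟨c, hc⟩ : ∃ c, c = (2 * σ + δ) / (β - α) := ⟨_, rfl⟩
    have hcd : c * (β - α) = 2 * σ + δ := by rw [hc]; field_simp
    have hc0 : 0 ≤ c := by rw [hc]; positivity
    obtain ⟨u, hu, hue, hvol⟩ := select K hK hKc e α β hαβ xa hxa hα.symm xb hxb hβ.symm hrange c
      (by
        intro h hh
        by_contra hcon
        push Not at hcon
        have h1 := lower_area K hK hKc e he α β h c hh.1 hh.2 hc0 xa hxa hα.symm xb hxb hβ.symm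
          (by
            intro w hw hwe
            obtain ⟨x, hx, y, hy, hxh, hyh, hcw⟩ := hcon w hw hwe
            exact ⟨x, ⟨hx, hxh⟩, y, ⟨hy, hyh⟩, hcw⟩)
          (by
            obtain ⟨z, hz, hze⟩ := slice_nonempty K hK e α β hαβ xa hxa hα.symm xb hxb hβ.symm
              h hh
            exact ⟨z, hz, hze⟩) m v hv hve B hB hcov
        rw [hσe, ENNReal.ofReal_le_ofReal_iff hσ0, hcd] at h1
        linarith)
    rw [hcd] at hvol
    exact (hA u hu hue).trans hvol
  rw [hσe]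
  have h2 : (2 : ℝ≥0∞) * ENNReal.ofReal σ = ENNReal.ofReal (2 * σ) := by
    rw [ENNReal.ofReal_mul (by norm_num), ENNReal.ofReal_ofNat]
  rw [h2]
  apply ENNReal.le_of_forall_pos_le_add
  intro δ hδ _
  refine (hkey δ (by exact_mod_cast hδ)).trans (le_of_eq ?_)
  rw [ENNReal.ofReal_add (by positivity) (by positivity), ENNReal.ofReal_coe_nnreal]

end Vale.Agent.P243
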