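import Mathlib

/-!
Bang's plank theorem for compact convex sets, in directions orthogonal to a fixed vector.
-/

namespace Vale.Agent.P243

open Finset MeasureTheory
open scoped Pointwise

variable {V : Type*} [NormedAddCommGroup V] [InnerProductSpace ℝ V]

/-- The sign attached to a Boolean. -/
noncomputable def sg (b : Bool) : ℝ := if b then 1 else -1

theorem sg_not (b : Bool) : sg (!b) = -sg b := by
  cases b <;> simp [sg]

theorem sg_sq (b : Bool) : sg b * sg b = 1 := by
  cases b <;> simp [sg]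

theorem sg_abs (b : Bool) (t : ℝ) : sg b * t ≤ |t| := by
  cases b
  · simp only [sg, Bool.false_eq_true, if_false]
    have := neg_abs_le t
    linarith
  · simp only [sg, if_true]
    have := le_abs_self t
    linarith

/-- Bang's lemma. -/
theorem bang_signs (m : ℕ) (v : Fin m → V) (w c : Fin m → ℝ) (hv : ∀ i, ‖v i‖ = 1)
    (hw : ∀ i, 0 ≤ w i) :
    ∃ ε : Fin m → Bool, ∀ i,
      w i ≤ |inner ℝ (v i) (∑ j, (sg (ε j) * w j) • v j) - c i| := by
  classical
  obtain ⟨ε, _, hε⟩ := Finset.exists_max_image (Finset.univ : Finset (Fin m → Bool))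
    (fun ε => ‖∑ j, (sg (ε j) * w j) • v j‖ ^ 2 - 2 * ∑ j, sg (ε j) * w j * c j)
    Finset.univ_nonempty
  refine ⟨ε, fun i => ?_⟩
  rcases (hw i).eq_or_lt with h0 | h0
  · rw [← h0]
    exact abs_nonneg _
  obtain ⟨s, hs⟩ : ∃ s, s = ∑ j, (sg (ε j) * w j) • v j := ⟨_, rfl⟩
  obtain ⟨r, hr⟩ : ∃ r, r = ∑ j, sg (ε j) * w j * c j := ⟨_, rfl⟩
  have h1 := hε (Function.update ε i (!ε i)) (Finset.mem_univ _)
  have e1 : ∑ j, (sg (Function.update ε i (!ε i) j) * w j) • v j
      = s - (2 * (sg (ε i) * w i)) • v i := by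
    rw [hs, ← Finset.add_sum_erase _ _ (Finset.mem_univ i),
      ← Finset.add_sum_erase (Finset.univ) (fun j => (sg (ε j) * w j) • v j) (Finset.mem_univ i)]
    have e2 : ∑ j ∈ Finset.univ.erase i, (sg (Function.update ε i (!ε i) j) * w j) • v j
        = ∑ j ∈ Finset.univ.erase i, (sg (ε j) * w j) • v j := by
      refine Finset.sum_congr rfl fun j hj => ?_
      rw [Function.update_of_ne (Finset.ne_of_mem_erase hj)]
    rw [e2, Function.update_self, sg_not]
    module
  have e3 : ∑ j, sg (Function.update ε i (!ε i) j) * w j * c j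
      = r - 2 * (sg (ε i) * w i * c i) := by
    rw [hr, ← Finset.add_sum_erase _ _ (Finset.mem_univ i),
      ← Finset.add_sum_erase (Finset.univ) (fun j => sg (ε j) * w j * c j) (Finset.mem_univ i)]
    have e2 : ∑ j ∈ Finset.univ.erase i, sg (Function.update ε i (!ε i) j) * w j * c j
        = ∑ j ∈ Finset.univ.erase i, sg (ε j) * w j * c j := by
      refine Finset.sum_congr rfl fun j hj => ?_
      rw [Function.update_of_ne (Finset.ne_of_mem_erase hj)]
    rw [e2, Function.update_self, sg_not]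
    ring
  simp only [e1, e3] at h1
  rw [← hs, ← hr] at h1
  rw [← hs]
  rw [norm_sub_sq_real, inner_smul_right, norm_smul, hv i, mul_one, real_inner_comm,
    Real.norm_eq_abs, sq_abs] at h1
  have h2 : (2 * (sg (ε i) * w i)) ^ 2 = 4 * w i ^ 2 := by
    have := sg_sq (ε i)
    calc (2 * (sg (ε i) * w i)) ^ 2 = 4 * (sg (ε i) * sg (ε i)) * w i ^ 2 := by ring
      _ = 4 * w i ^ 2 := by rw [this]; ring
  rw [h2] at h1
  have h3 : w i * w i ≤ w i * (sg (ε i) * (inner ℝ (v i) s - c i)) := by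
    nlinarith
  have h4 : w i ≤ sg (ε i) * (inner ℝ (v i) s - c i) := le_of_mul_le_mul_left h3 h0
  exact h4.trans (sg_abs _ _)

/-- A compact convex set contained in a hyperplane orthogonal to `e`, all of whose widths in
directions orthogonal to `e` are at least `w`, contains chords of length `w` in all these
directions. -/
theorem chord [CompleteSpace V] (e : V) (C : Set V) (hC : Convex ℝ C) (hCc : IsCompact C)
    (w h : ℝ) (hw : 0 ≤ w) (he : ‖e‖ = 1) (hCe : ∀ x ∈ C, inner ℝ e x = h) (hne : C.Nonempty)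
    (hwid : ∀ v : V, ‖v‖ = 1 → inner ℝ e v = 0 → ∃ x ∈ C, ∃ y ∈ C, w ≤ inner ℝ v (x - y))
    (u : V) (hu : ‖u‖ = 1) (hue : inner ℝ e u = 0) : ∃ a ∈ C, ∃ b ∈ C, b - a = w • u := by
  by_contra hcon
  push Not at hcon
  have hD : Convex ℝ (C - C) := hC.sub hC
  have hDc : IsCompact (C - C) := by
    rw [sub_eq_add_neg]
    exact hCc.add hCc.neg
  have hnot : w • u ∉ C - C := by
    intro hmem
    obtain ⟨b, hb, a, ha, hab⟩ := Set.mem_sub.mp hmem
    exact hcon a ha b hb hab
  obtain ⟨f, t, hf1, hf2⟩ := geometric_hahn_banach_closed_point hD hDc.isClosed hnot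
  obtain ⟨z, hz⟩ : ∃ z : V, ∀ x, f x = inner ℝ z x := by
    refine ⟨(InnerProductSpace.toDual ℝ V).symm f, fun x => ?_⟩
    rw [InnerProductSpace.toDual_symm_apply]
  obtain ⟨z', hz'⟩ : ∃ z' : V, z' = z - (inner ℝ e z) • e := ⟨_, rfl⟩
  have hz'e : inner ℝ e z' = 0 := by
    rw [hz', inner_sub_right, inner_smul_right, real_inner_self_eq_norm_sq, he]
    ring
  have hz'x : ∀ x, inner ℝ e x = 0 → inner ℝ z' x = inner ℝ z x := by
    intro x hx
    rw [hz', inner_sub_left, inner_smul_left, hx]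
    simp
  obtain ⟨x0, hx0⟩ := hne
  have h0 : 0 < t := by
    have := hf1 0 (Set.mem_sub.mpr ⟨x0, hx0, x0, hx0, sub_self x0⟩)
    simpa using this
  have hwu : inner ℝ e (w • u) = 0 := by rw [inner_smul_right, hue, mul_zero]
  have h1 : t < inner ℝ z' (w • u) := by
    rw [hz'x _ hwu, ← hz]
    exact hf2
  have hz'0 : z' ≠ 0 := by
    intro h2
    rw [h2, inner_zero_left] at h1
    linarith
  have hn : 0 < ‖z'‖ := norm_pos_iff.mpr hz'0
  obtain ⟨x, hx, y, hy, hxy⟩ := hwid ((‖z'‖)⁻¹ • z')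
    (by rw [norm_smul, norm_inv, norm_norm, inv_mul_cancel₀ hn.ne'])
    (by rw [inner_smul_right, hz'e, mul_zero])
  have h3 : inner ℝ z' (x - y) < t := by
    have hxye : inner ℝ e (x - y) = 0 := by
      rw [inner_sub_right, hCe x hx, hCe y hy, sub_self]
    rw [hz'x _ hxye, ← hz]
    exact hf1 _ (Set.sub_mem_sub hx hy)
  rw [inner_smul_left] at hxy
  simp only [map_inv₀, conj_trivial] at hxy
  have h4 : ‖z'‖ * w ≤ inner ℝ z' (x - y) := by
    have := mul_le_mul_of_nonneg_left hxy hn.le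
    rwa [← mul_assoc, mul_inv_cancel₀ hn.ne', one_mul] at this
  have h5 : inner ℝ z' (w • u) ≤ ‖z'‖ * w := by
    rw [inner_smul_right]
    have := real_inner_le_norm z' u
    rw [hu, mul_one] at this
    calc w * inner ℝ z' u ≤ w * ‖z'‖ := mul_le_mul_of_nonneg_left this hw
      _ = ‖z'‖ * w := mul_comm _ _
  linarith

/-- All sign shifts fit. -/
theorem shifts [CompleteSpace V] (e : V) (he : ‖e‖ = 1) (h : ℝ) : ∀ (m : ℕ) (C : Set V),
    Convex ℝ C → IsCompact C → (∀ x ∈ C, inner ℝ e x = h) → ∀ w : ℝ,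
    (∀ v : V, ‖v‖ = 1 → inner ℝ e v = 0 → ∃ x ∈ C, ∃ y ∈ C, w ≤ inner ℝ v (x - y)) →
    C.Nonempty →
    ∀ (v : Fin m → V) (r : Fin m → ℝ), (∀ i, ‖v i‖ = 1) → (∀ i, inner ℝ e (v i) = 0) →
    (∀ i, 0 ≤ r i) → ∑ i, 2 * r i < w →
    ∃ p : V, ∀ ε : Fin m → Bool, p + ∑ j, (sg (ε j) * r j) • v j ∈ C := by
  intro m
  induction m with
  | zero =>
    intro C _ _ _ w _ hne v r _ _ _ _
    obtain ⟨x, hx⟩ := hne
    exact ⟨x, fun ε => by simpa using hx⟩
  | succ m ih =>
    intro C hC hCc hCe w hwid hne v r hv hve hr hsum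
    rw [Fin.sum_univ_succ] at hsum
    have hrest : 0 ≤ ∑ i : Fin m, 2 * r i.succ :=
      Finset.sum_nonneg fun i _ => mul_nonneg (by norm_num) (hr _)
    have hw : 0 < w := by have := hr 0; linarith
    obtain ⟨a, ha, b, hb, hab⟩ := chord e C hC hCc w h hw.le he hCe hne hwid (v 0) (hv 0) (hve 0)
    obtain ⟨l, hl⟩ : ∃ l, l = 2 * r 0 / w := ⟨_, rfl⟩
    have hl0 : 0 ≤ l := by rw [hl]; have := hr 0; positivity
    have hl1 : l ≤ 1 := by rw [hl, div_le_one hw]; linarith
    have hlw : l * w = 2 * r 0 := by rw [hl]; field_simp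
    obtain ⟨C', hC'⟩ : ∃ C' : Set V, C' = {x | x + r 0 • v 0 ∈ C ∧ x - r 0 • v 0 ∈ C} :=
      ⟨_, rfl⟩
    have hC'mem : ∀ x ∈ C, (1 - l) • x + (l / 2) • (a + b) ∈ C' := by
      intro x hx
      rw [hC']
      have e1 : r 0 • v 0 = (l / 2) • (b - a) := by
        rw [hab, smul_smul, show l / 2 * w = r 0 by linarith]
      constructor
      · rw [e1]
        have : (1 - l) • x + (l / 2) • (a + b) + (l / 2) • (b - a) = (1 - l) • x + l • b := by
          module
        rw [this]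
        exact hC hx hb (by linarith) hl0 (by ring)
      · rw [e1]
        have : (1 - l) • x + (l / 2) • (a + b) - (l / 2) • (b - a) = (1 - l) • x + l • a := by
          module
        rw [this]
        exact hC hx ha (by linarith) hl0 (by ring)
    have hC'conv : Convex ℝ C' := by
      rw [hC']
      have h1 : {x : V | x + r 0 • v 0 ∈ C ∧ x - r 0 • v 0 ∈ C}
          = (fun x => x + r 0 • v 0) ⁻¹' C ∩ (fun x => x + -(r 0 • v 0)) ⁻¹' C := by
        ext x
        simp [sub_eq_add_neg]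
      rw [h1]
      exact (hC.translate_preimage_left _).inter (hC.translate_preimage_left _)
    have hC'comp : IsCompact C' := by
      rw [hC']
      have h1 : {x : V | x + r 0 • v 0 ∈ C ∧ x - r 0 • v 0 ∈ C}
          = (Homeomorph.addRight (r 0 • v 0)) ⁻¹' C
            ∩ (Homeomorph.addRight (-(r 0 • v 0))) ⁻¹' C := by
        ext x
        simp [sub_eq_add_neg]
      rw [h1]
      exact ((Homeomorph.isCompact_preimage _).mpr hCc).inter
        ((Homeomorph.isCompact_preimage _).mpr hCc)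
    have hC'e : ∀ x ∈ C', inner ℝ e x = h := by
      intro x hx
      rw [hC'] at hx
      have := hCe _ hx.1
      rwa [inner_add_right, inner_smul_right, hve 0, mul_zero, add_zero] at this
    have hwid' : ∀ u : V, ‖u‖ = 1 → inner ℝ e u = 0 →
        ∃ x ∈ C', ∃ y ∈ C', w - 2 * r 0 ≤ inner ℝ u (x - y) := by
      intro u hu hue
      obtain ⟨x, hx, y, hy, hxy⟩ := hwid u hu hue
      refine ⟨_, hC'mem x hx, _, hC'mem y hy, ?_⟩
      have : (1 - l) • x + (l / 2) • (a + b) - ((1 - l) • y + (l / 2) • (a + b))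
          = (1 - l) • (x - y) := by module
      rw [this, inner_smul_right]
      nlinarith
    obtain ⟨x0, hx0⟩ := hne
    obtain ⟨p, hp⟩ := ih C' hC'conv hC'comp hC'e (w - 2 * r 0) hwid' ⟨_, hC'mem x0 hx0⟩
      (fun i => v i.succ) (fun i => r i.succ) (fun i => hv _) (fun i => hve _) (fun i => hr _)
      (by linarith)
    refine ⟨p, fun ε => ?_⟩
    have h1 := hp (fun i => ε i.succ)
    rw [hC'] at h1
    rw [Fin.sum_univ_succ]
    obtain ⟨S, hS⟩ : ∃ S, S = ∑ i : Fin m, (sg (ε i.succ) * r i.succ) • v i.succ := ⟨_, rfl⟩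
    rw [← hS] at h1 ⊢
    cases hε : ε 0
    · have h2 := h1.2
      have : p + ((sg false * r 0) • v 0 + S) = p + S - r 0 • v 0 := by
        simp only [sg, Bool.false_eq_true, if_false]
        module
      rw [this]
      exact h2
    · have h2 := h1.1
      have : p + ((sg true * r 0) • v 0 + S) = p + S + r 0 • v 0 := by
        simp only [sg, if_true]
        module
      rw [this]
      exact h2

/-- Bang's plank theorem. -/
theorem plank [CompleteSpace V] (e : V) (he : ‖e‖ = 1) (h : ℝ) (m : ℕ) (C : Set V)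
    (hC : Convex ℝ C) (hCc : IsCompact C) (hCe : ∀ x ∈ C, inner ℝ e x = h) (w : ℝ)
    (hwid : ∀ v : V, ‖v‖ = 1 → inner ℝ e v = 0 → ∃ x ∈ C, ∃ y ∈ C, w ≤ inner ℝ v (x - y))
    (hne : C.Nonempty) (v : Fin m → V) (r c : Fin m → ℝ) (hv : ∀ i, ‖v i‖ = 1)
    (hve : ∀ i, inner ℝ e (v i) = 0) (hr : ∀ i, 0 ≤ r i)
    (hcov : ∀ x ∈ C, ∃ i, |inner ℝ (v i) x - c i| < r i) : w ≤ ∑ i, 2 * r i := by
  by_contra hcon
  push Not at hcon
  obtain ⟨p, hp⟩ := shifts e he h m C hC hCc hCe w hwid hne v r hv hve hr hcon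
  obtain ⟨ε, hε⟩ := bang_signs m v r (fun i => c i - inner ℝ (v i) p) hv hr
  obtain ⟨i, hi⟩ := hcov _ (hp ε)
  have h1 := hε i
  rw [inner_add_right] at hi
  have e1 : inner ℝ (v i) (∑ j, (sg (ε j) * r j) • v j) - (c i - inner ℝ (v i) p)
      = inner ℝ (v i) p + inner ℝ (v i) (∑ j, (sg (ε j) * r j) • v j) - c i := by ring
  rw [e1] at h1
  linarith

end Vale.Agent.P243
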