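import Vale.Agent.P243.Slices

/-!
Selection of a direction with a small projection.
-/

namespace Vale.Agent.P243

open Finset MeasureTheory
open scoped Pointwise ENNReal NNReal

variable {V : Type*} [NormedAddCommGroup V] [InnerProductSpace ℝ V]

theorem slice_nonempty (K : Set V) (hK : Convex ℝ K) (e : V) (α β : ℝ) (hαβ : α < β)
    (xa : V) (hxa : xa ∈ K) (hxae : inner ℝ e xa = α)
    (xb : V) (hxb : xb ∈ K) (hxbe : inner ℝ e xb = β) (h : ℝ) (hh : h ∈ Set.Icc α β) :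
    ∃ z ∈ K, inner ℝ e z = h := by
  have hd : 0 < β - α := by linarith
  refine ⟨((β - h) / (β - α)) • xa + ((h - α) / (β - α)) • xb,
    hK hxa hxb (div_nonneg (by linarith [hh.2]) hd.le) (div_nonneg (by linarith [hh.1]) hd.le)
      (by field_simp; ring), ?_⟩
  rw [inner_add_right, inner_smul_right, inner_smul_right, hxae, hxbe]
  field_simp
  ring

/-- Upper bound for the area of a projection. -/
theorem proj_upper (K : Set V) (hK : Convex ℝ K) (hKc : IsCompact K) (e v : V)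
    (α β : ℝ) (hαβ : α < β) (xa : V) (hxa : xa ∈ K) (hxae : inner ℝ e xa = α)
    (xb : V) (hxb : xb ∈ K) (hxbe : inner ℝ e xb = β)
    (hrange : ∀ x ∈ K, inner ℝ e x ∈ Set.Icc α β) (c s h0 : ℝ)
    (hlin : ∀ x ∈ K, ∀ y ∈ K, (inner ℝ e x : ℝ) = inner ℝ e y →
      inner ℝ v (x - y) ≤ c + s * (inner ℝ e x - h0)) :
    volume ((fun x : V => ((inner ℝ v x : ℝ), (inner ℝ e x : ℝ))) '' K)
      ≤ ENNReal.ofReal (c * (β - α) + s * ((α + β) / 2 - h0) * (β - α)) := by
  have hcont : Continuous (fun x : V => ((inner ℝ v x : ℝ), (inner ℝ e x : ℝ))) := by fun_prop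
  have himc : IsCompact ((fun x : V => ((inner ℝ v x : ℝ), (inner ℝ e x : ℝ))) '' K) :=
    hKc.image hcont
  rw [Measure.volume_eq_prod, Measure.prod_apply_symm himc.measurableSet]
  have hpos : ∀ h ∈ Set.Icc α β, 0 ≤ (c + s * (α - h0)) + s * (h - α) := by
    intro h hh
    obtain ⟨z, hz, hze⟩ := slice_nonempty K hK e α β hαβ xa hxa hxae xb hxb hxbe h hh
    have := hlin z hz z hz rfl
    rw [sub_self, inner_zero_right, hze] at this
    linarith
  have h1 : ∀ h : ℝ, volume ((fun x : ℝ => (x, h)) ⁻¹'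
      ((fun x : V => ((inner ℝ v x : ℝ), (inner ℝ e x : ℝ))) '' K))
      ≤ (Set.Icc α β).indicator
        (fun h => ENNReal.ofReal ((c + s * (α - h0)) + s * (h - α))) h := by
    intro h
    by_cases hh : h ∈ Set.Icc α β
    · rw [Set.indicator_of_mem hh]
      refine (Real.volume_le_diam _).trans ?_
      apply Metric.ediam_le
      rintro a ⟨x, hx, hxa'⟩ b ⟨y, hy, hyb⟩
      have ex := congrArg Prod.snd hxa'
      have ex1 := congrArg Prod.fst hxa'
      have ey := congrArg Prod.snd hyb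
      have ey1 := congrArg Prod.fst hyb
      simp only at ex ex1 ey ey1
      rw [edist_dist, Real.dist_eq]
      apply ENNReal.ofReal_le_ofReal
      have e1 := hlin x hx y hy (ex.trans ey.symm)
      have e2 := hlin y hy x hx (ey.trans ex.symm)
      rw [inner_sub_right, ex1, ey1] at e1 e2
      rw [ex] at e1
      rw [ey] at e2
      rw [abs_le]
      constructor <;> linarith
    · rw [Set.indicator_of_notMem hh]
      have : (fun x : ℝ => (x, h)) ⁻¹'
          ((fun x : V => ((inner ℝ v x : ℝ), (inner ℝ e x : ℝ))) '' K) = ∅ := by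
        rw [Set.eq_empty_iff_forall_notMem]
        rintro a ⟨x, hx, hxa'⟩
        have ex := congrArg Prod.snd hxa'
        simp only at ex
        apply hh
        rw [← ex]
        exact hrange x hx
      rw [this, measure_empty]
  refine (lintegral_mono h1).trans ?_
  rw [lintegral_indicator measurableSet_Icc,
    affine_lintegral α β (c + s * (α - h0)) s hαβ.le hpos]
  apply ENNReal.ofReal_le_ofReal
  apply le_of_eq
  ring

/-- A supporting line for the concave width function. -/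
theorem support_line (K : Set V) (hK : Convex ℝ K) (e v : V) (α β : ℝ)
    (xa : V) (hxa : xa ∈ K) (hxae : inner ℝ e xa = α)
    (xb : V) (hxb : xb ∈ K) (hxbe : inner ℝ e xb = β) (c h0 : ℝ) (hh0 : α < h0) (hh1 : h0 < β)
    (hP : ∀ x ∈ K, ∀ y ∈ K, (inner ℝ e x : ℝ) = h0 → (inner ℝ e y : ℝ) = h0 →
      inner ℝ v (x - y) < c) :
    ∃ s : ℝ, ∀ x ∈ K, ∀ y ∈ K, (inner ℝ e x : ℝ) = inner ℝ e y →
      inner ℝ v (x - y) ≤ c + s * (inner ℝ e x - h0) := by
  obtain ⟨Rt, hRt⟩ : ∃ Rt : Set ℝ, Rt = {r | ∃ x ∈ K, ∃ y ∈ K,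
    (inner ℝ e x : ℝ) = inner ℝ e y ∧ h0 < inner ℝ e x ∧
      r = (inner ℝ v (x - y) - c) / (inner ℝ e x - h0)} := ⟨_, rfl⟩
  have key : ∀ x ∈ K, ∀ y ∈ K, (inner ℝ e x : ℝ) = inner ℝ e y → h0 < inner ℝ e x →
      ∀ x' ∈ K, ∀ y' ∈ K, (inner ℝ e x' : ℝ) = inner ℝ e y' → inner ℝ e x' < h0 →
      (inner ℝ v (x - y) - c) / (inner ℝ e x - h0)
        ≤ (c - inner ℝ v (x' - y')) / (h0 - inner ℝ e x') := by
    intro x hx y hy hxy hxh x' hx' y' hy' hxy' hxh'
    obtain ⟨h, hh⟩ : ∃ h : ℝ, h = inner ℝ e x := ⟨_, rfl⟩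
    obtain ⟨h', hh'⟩ : ∃ h' : ℝ, h' = inner ℝ e x' := ⟨_, rfl⟩
    rw [← hh] at hxh hxy ⊢
    rw [← hh'] at hxh' hxy' ⊢
    obtain ⟨g, hg⟩ : ∃ g : ℝ, g = inner ℝ v (x - y) := ⟨_, rfl⟩
    obtain ⟨g', hg'⟩ : ∃ g' : ℝ, g' = inner ℝ v (x' - y') := ⟨_, rfl⟩
    rw [← hg, ← hg']
    obtain ⟨l, hl⟩ : ∃ l, l = (h0 - h') / (h - h') := ⟨_, rfl⟩
    have hd : 0 < h - h' := by linarith
    have hl0 : 0 ≤ l := by rw [hl]; exact div_nonneg (by linarith) hd.le
    have hl1 : l ≤ 1 := by rw [hl, div_le_one hd]; linarith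
    have hlh : l * h + (1 - l) * h' = h0 := by
      rw [hl]; field_simp; ring
    have e1 := hP (l • x + (1 - l) • x') (hK hx hx' hl0 (by linarith) (by ring))
      (l • y + (1 - l) • y') (hK hy hy' hl0 (by linarith) (by ring))
      (by rw [inner_add_right, inner_smul_right, inner_smul_right, ← hh, ← hh']; exact hlh)
      (by rw [inner_add_right, inner_smul_right, inner_smul_right, ← hxy, ← hxy']; exact hlh)
    have e2 : l • x + (1 - l) • x' - (l • y + (1 - l) • y')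
        = l • (x - y) + (1 - l) • (x' - y') := by module
    rw [e2, inner_add_right, inner_smul_right, inner_smul_right, ← hg, ← hg'] at e1
    have e3 : l * (h - h') = h0 - h' := by rw [hl]; field_simp
    have e4 : (l * g + (1 - l) * g') * (h - h') < c * (h - h') :=
      mul_lt_mul_of_pos_right e1 hd
    have e5 : (l * g + (1 - l) * g') * (h - h') = (h0 - h') * g + (h - h0) * g' := by
      calc (l * g + (1 - l) * g') * (h - h') = (l * (h - h')) * g + ((h - h') - l * (h - h')) * g' := by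
            ring
        _ = _ := by rw [e3]; ring
    rw [e5] at e4
    rw [div_le_div_iff₀ (by linarith) (by linarith)]
    nlinarith
  have hne : Rt.Nonempty := by
    rw [hRt]
    exact ⟨_, xb, hxb, xb, hxb, rfl, by rw [hxbe]; exact hh1, rfl⟩
  have hbdd : BddAbove Rt := by
    refine ⟨(c - inner ℝ v (xa - xa)) / (h0 - inner ℝ e xa), ?_⟩
    rw [hRt]
    rintro r ⟨x, hx, y, hy, hxy, hxh, rfl⟩
    exact key x hx y hy hxy hxh xa hxa xa hxa rfl (by rw [hxae]; exact hh0)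
  refine ⟨sSup Rt, fun x hx y hy hxy => ?_⟩
  rcases lt_trichotomy (inner ℝ e x : ℝ) h0 with hlt | heq | hgt
  · have h1 : sSup Rt ≤ (c - inner ℝ v (x - y)) / (h0 - inner ℝ e x) := by
      apply csSup_le hne
      rw [hRt]
      rintro r ⟨x', hx', y', hy', hxy', hxh', rfl⟩
      exact key x' hx' y' hy' hxy' hxh' x hx y hy hxy hlt
    rw [le_div_iff₀ (by linarith)] at h1
    linarith
  · have h1 := hP x hx y hy heq (hxy.symm.trans heq)
    rw [heq, sub_self, mul_zero, add_zero]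
    exact h1.le
  · have h1 : (inner ℝ v (x - y) - c) / (inner ℝ e x - h0) ≤ sSup Rt := by
      apply le_csSup hbdd
      rw [hRt]
      exact ⟨x, hx, y, hy, hxy, hgt, rfl⟩
    rw [div_le_iff₀ (by linarith)] at h1
    linarith

/-- If every slice has a direction of width less than `c`, then some projection has area at most
`c` times the height. -/
theorem select (K : Set V) (hK : Convex ℝ K) (hKc : IsCompact K) (e : V)
    (α β : ℝ) (hαβ : α < β) (xa : V) (hxa : xa ∈ K) (hxae : inner ℝ e xa = α)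
    (xb : V) (hxb : xb ∈ K) (hxbe : inner ℝ e xb = β)
    (hrange : ∀ x ∈ K, inner ℝ e x ∈ Set.Icc α β) (c : ℝ)
    (hH : ∀ h ∈ Set.Icc α β, ∃ v : V, ‖v‖ = 1 ∧ inner ℝ e v = 0 ∧
      ∀ x ∈ K, ∀ y ∈ K, (inner ℝ e x : ℝ) = h → (inner ℝ e y : ℝ) = h →
        inner ℝ v (x - y) < c) :
    ∃ v : V, ‖v‖ = 1 ∧ inner ℝ e v = 0 ∧
      volume ((fun x : V => ((inner ℝ v x : ℝ), (inner ℝ e x : ℝ))) '' K)
        ≤ ENNReal.ofReal (c * (β - α)) := by
  obtain ⟨A, hA⟩ : ∃ A : V → Set ℝ, A = fun v => {h | ∃ x ∈ K, ∃ y ∈ K,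
    (inner ℝ e x : ℝ) = h ∧ (inner ℝ e y : ℝ) = h ∧ c ≤ inner ℝ v (x - y)} := ⟨_, rfl⟩
  have hAc : ∀ v, IsCompact (A v) := by
    intro v
    have h1 : A v = (fun z : V × V => (inner ℝ e z.1 : ℝ)) ''
        ((K ×ˢ K) ∩ ({z : V × V | (inner ℝ e z.1 : ℝ) = inner ℝ e z.2}
          ∩ {z : V × V | c ≤ inner ℝ v (z.1 - z.2)})) := by
      ext h
      rw [hA]
      constructor
      · rintro ⟨x, hx, y, hy, hxh, hyh, hc⟩
        exact ⟨(x, y), ⟨⟨hx, hy⟩, hxh.trans hyh.symm, hc⟩, hxh⟩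
      · rintro ⟨⟨x, y⟩, ⟨⟨hx, hy⟩, hxy, hc⟩, hxh⟩
        exact ⟨x, hx, y, hy, hxh, hxy.symm.trans hxh, hc⟩
    rw [h1]
    apply IsCompact.image
    · apply (hKc.prod hKc).inter_right
      exact (isClosed_eq (by fun_prop) (by fun_prop)).inter
        (isClosed_le continuous_const (by fun_prop))
    · fun_prop
  have hAconv : ∀ v, ∀ p ∈ A v, ∀ q ∈ A v, ∀ r, p ≤ r → r ≤ q → r ∈ A v := by
    intro v p hp q hq r hpr hrq
    rw [hA] at hp hq ⊢
    obtain ⟨x, hx, y, hy, hxp, hyp, hc⟩ := hp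
    obtain ⟨x', hx', y', hy', hxq, hyq, hc'⟩ := hq
    rcases (hpr.trans hrq).eq_or_lt with h0 | h0
    · have : r = p := le_antisymm (by linarith) hpr
      rw [this]
      exact ⟨x, hx, y, hy, hxp, hyp, hc⟩
    · have hd : 0 < q - p := by linarith
      obtain ⟨l, hl⟩ : ∃ l, l = (r - p) / (q - p) := ⟨_, rfl⟩
      have hl0 : 0 ≤ l := by rw [hl]; exact div_nonneg (by linarith) hd.le
      have hl1 : l ≤ 1 := by rw [hl, div_le_one hd]; linarith
      have hlr : l * q + (1 - l) * p = r := by rw [hl]; field_simp; ring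
      refine ⟨l • x' + (1 - l) • x, hK hx' hx hl0 (by linarith) (by ring),
        l • y' + (1 - l) • y, hK hy' hy hl0 (by linarith) (by ring), ?_, ?_, ?_⟩
      · rw [inner_add_right, inner_smul_right, inner_smul_right, hxq, hxp]
        exact hlr
      · rw [inner_add_right, inner_smul_right, inner_smul_right, hyq, hyp]
        exact hlr
      · have : l • x' + (1 - l) • x - (l • y' + (1 - l) • y)
            = l • (x' - y') + (1 - l) • (x - y) := by module
        rw [this, inner_add_right, inner_smul_right, inner_smul_right]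
        nlinarith
  have hAmem : ∀ v h, h ∈ A v → ∃ x ∈ K, ∃ y ∈ K,
      (inner ℝ e x : ℝ) = h ∧ (inner ℝ e y : ℝ) = h ∧ c ≤ inner ℝ v (x - y) := by
    intro v h hh
    rw [hA] at hh
    exact hh
  have hAnot : ∀ v h, h ∉ A v → ∀ x ∈ K, ∀ y ∈ K, (inner ℝ e x : ℝ) = h →
      (inner ℝ e y : ℝ) = h → inner ℝ v (x - y) < c := by
    intro v h hh x hx y hy hxh hyh
    by_contra hcon
    push Not at hcon
    apply hh
    rw [hA]
    exact ⟨x, hx, y, hy, hxh, hyh, hcon⟩
  have hArange : ∀ v, ∀ h ∈ A v, h ∈ Set.Icc α β := by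
    intro v h hh
    rw [hA] at hh
    obtain ⟨x, hx, y, hy, hxh, hyh, hc⟩ := hh
    rw [← hxh]
    exact hrange x hx
  by_cases hcase : ∃ v : V, ‖v‖ = 1 ∧ inner ℝ e v = 0 ∧ A v = ∅
  · obtain ⟨v, hv, hve, hAv⟩ := hcase
    refine ⟨v, hv, hve, ?_⟩
    have h1 := proj_upper K hK hKc e v α β hαβ xa hxa hxae xb hxb hxbe hrange c 0 α (by
      intro x hx y hy hxy
      have := hAnot v (inner ℝ e x) (by rw [hAv]; exact Set.notMem_empty _) x hx y hy rfl hxy.symm
      linarith)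
    simpa using h1
  · push Not at hcase
    obtain ⟨S, hS⟩ : ∃ S : Set ℝ, S = {a | ∃ v : V, ‖v‖ = 1 ∧ inner ℝ e v = 0 ∧ a = sInf (A v)} :=
      ⟨_, rfl⟩
    have hlo : ∀ v : V, ‖v‖ = 1 → inner ℝ e v = 0 → sInf (A v) ∈ A v := fun v hv hve =>
      (hAc v).sInf_mem (hcase v hv hve)
    have hhi : ∀ v : V, ‖v‖ = 1 → inner ℝ e v = 0 → sSup (A v) ∈ A v := fun v hv hve =>
      (hAc v).sSup_mem (hcase v hv hve)
    obtain ⟨v0, hv0, hv0e, _⟩ := hH α ⟨le_rfl, hαβ.le⟩
    have hSne : S.Nonempty := by rw [hS]; exact ⟨_, v0, hv0, hv0e, rfl⟩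
    have hSb : BddAbove S := by
      refine ⟨β, ?_⟩
      rw [hS]
      rintro a ⟨v, hv, hve, rfl⟩
      exact (hArange v _ (hlo v hv hve)).2
    have haα : α ≤ sSup S := by
      refine le_trans (hArange v0 _ (hlo v0 hv0 hv0e)).1 (le_csSup hSb ?_)
      rw [hS]
      exact ⟨v0, hv0, hv0e, rfl⟩
    have haβ : sSup S ≤ β := by
      apply csSup_le hSne
      rw [hS]
      rintro a ⟨v, hv, hve, rfl⟩
      exact (hArange v _ (hlo v hv hve)).2
    obtain ⟨v1, hv1, hv1e, hv1P⟩ := hH (sSup S) ⟨haα, haβ⟩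
    have hnot1 : sSup S ∉ A v1 := by
      intro hmem
      rw [hA] at hmem
      obtain ⟨x, hx, y, hy, hxh, hyh, hc⟩ := hmem
      have := hv1P x hx y hy hxh hyh
      linarith
    have hlo1 : sInf (A v1) ≤ sSup S := by
      apply le_csSup hSb
      rw [hS]
      exact ⟨v1, hv1, hv1e, rfl⟩
    have hhi1 : sSup (A v1) < sSup S := by
      by_contra hcon
      push Not at hcon
      exact hnot1 (hAconv v1 _ (hlo v1 hv1 hv1e) _ (hhi v1 hv1 hv1e) _ hlo1 hcon)
    obtain ⟨b, hbS, hb⟩ := exists_lt_of_lt_csSup hSne hhi1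
    rw [hS] at hbS
    obtain ⟨v2, hv2, hv2e, rfl⟩ := hbS
    obtain ⟨h0, hh0⟩ : ∃ h0, h0 = (sSup (A v1) + sInf (A v2)) / 2 := ⟨_, rfl⟩
    have hq1 := hhi v1 hv1 hv1e
    have hq2 := hlo v2 hv2 hv2e
    have ha1 := (hArange v1 _ hq1).1
    have hb2 := (hArange v2 _ hq2).2
    have hn1 : h0 ∉ A v1 := by
      intro hmem
      have := le_csSup (hAc v1).bddAbove hmem
      linarith
    have hn2 : h0 ∉ A v2 := by
      intro hmem
      have := csInf_le (hAc v2).bddBelow hmem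
      linarith
    obtain ⟨s1, hs1⟩ := support_line K hK e v1 α β xa hxa hxae xb hxb hxbe c h0 (by linarith)
      (by linarith) (hAnot v1 h0 hn1)
    obtain ⟨s2, hs2⟩ := support_line K hK e v2 α β xa hxa hxae xb hxb hxbe c h0 (by linarith)
      (by linarith) (hAnot v2 h0 hn2)
    have hs1neg : s1 ≤ 0 := by
      obtain ⟨x, hx, y, hy, hxh, hyh, hc⟩ := hAmem _ _ hq1
      have h1 := hs1 x hx y hy (hxh.trans hyh.symm)
      rw [hxh] at h1
      by_contra hcon
      push Not at hcon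
      nlinarith
    have hs2pos : 0 ≤ s2 := by
      obtain ⟨x, hx, y, hy, hxh, hyh, hc⟩ := hAmem _ _ hq2
      have h1 := hs2 x hx y hy (hxh.trans hyh.symm)
      rw [hxh] at h1
      by_contra hcon
      push Not at hcon
      nlinarith
    rcases le_total h0 ((α + β) / 2) with hm | hm
    · refine ⟨v1, hv1, hv1e, (proj_upper K hK hKc e v1 α β hαβ xa hxa hxae xb hxb hxbe hrange
        c s1 h0 hs1).trans (ENNReal.ofReal_le_ofReal ?_)⟩
      have : s1 * ((α + β) / 2 - h0) * (β - α) ≤ 0 :=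
        mul_nonpos_of_nonpos_of_nonneg
          (mul_nonpos_of_nonpos_of_nonneg hs1neg (by linarith)) (by linarith)
      linarith
    · refine ⟨v2, hv2, hv2e, (proj_upper K hK hKc e v2 α β hαβ xa hxa hxae xb hxb hxbe hrange
        c s2 h0 hs2).trans (ENNReal.ofReal_le_ofReal ?_)⟩
      have : s2 * ((α + β) / 2 - h0) * (β - α) ≤ 0 :=
        mul_nonpos_of_nonpos_of_nonneg
          (mul_nonpos_of_nonneg_of_nonpos hs2pos (by linarith)) (by linarith)
      linarith

end Vale.Agent.P243
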