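import Vale.Agent.P243.Lines

/-!
Integration over slices: the lower bound for the total base area.
-/

namespace Vale.Agent.P243

open Finset MeasureTheory
open scoped Pointwise ENNReal NNReal

variable {V : Type*} [NormedAddCommGroup V] [InnerProductSpace ℝ V]

theorem affine_lintegral (a b p q : ℝ) (hab : a ≤ b)
    (hpos : ∀ h ∈ Set.Icc a b, 0 ≤ p + q * (h - a)) :
    ∫⁻ h in Set.Icc a b, ENNReal.ofReal (p + q * (h - a))
      = ENNReal.ofReal (p * (b - a) + q * (b - a) ^ 2 / 2) := by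
  have hcont : Continuous fun h : ℝ => p + q * (h - a) := by fun_prop
  rw [← ofReal_integral_eq_lintegral_ofReal
    (hcont.continuousOn.integrableOn_compact isCompact_Icc)
    ((ae_restrict_iff' measurableSet_Icc).mpr (Filter.Eventually.of_forall hpos))]
  congr 1
  rw [integral_Icc_eq_integral_Ioc, ← intervalIntegral.integral_of_le hab,
    intervalIntegral.integral_add (continuous_const.intervalIntegrable _ _) (by
      apply Continuous.intervalIntegrable
      fun_prop), intervalIntegral.integral_const,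
    intervalIntegral.integral_const_mul, intervalIntegral.integral_sub intervalIntegral.intervalIntegrable_id
      (continuous_const.intervalIntegrable _ _),
    integral_id, intervalIntegral.integral_const, smul_eq_mul, smul_eq_mul]
  ring

/-- Widths of slices are concave along segments from a point. -/
theorem slice_width (K : Set V) (hK : Convex ℝ K) (e : V) (h0 h1 w1 l : ℝ) (hl0 : 0 ≤ l)
    (hl1 : l ≤ 1) (x0 : V) (hx0 : x0 ∈ K) (hx0e : inner ℝ e x0 = h0)
    (hwid : ∀ v : V, ‖v‖ = 1 → inner ℝ e v = 0 →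
      ∃ x ∈ {x ∈ K | inner ℝ e x = h1}, ∃ y ∈ {x ∈ K | inner ℝ e x = h1},
        w1 ≤ inner ℝ v (x - y)) :
    ∀ v : V, ‖v‖ = 1 → inner ℝ e v = 0 →
      ∃ x ∈ {x ∈ K | inner ℝ e x = l * h1 + (1 - l) * h0},
        ∃ y ∈ {x ∈ K | inner ℝ e x = l * h1 + (1 - l) * h0},
        l * w1 ≤ inner ℝ v (x - y) := by
  intro v hv hve
  obtain ⟨x, ⟨hx, hxe⟩, y, ⟨hy, hye⟩, hxy⟩ := hwid v hv hve
  refine ⟨l • x + (1 - l) • x0, ⟨hK hx hx0 hl0 (by linarith) (by ring), ?_⟩,
    l • y + (1 - l) • x0, ⟨hK hy hx0 hl0 (by linarith) (by ring), ?_⟩, ?_⟩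
  · rw [inner_add_right, inner_smul_right, inner_smul_right, hxe, hx0e]
  · rw [inner_add_right, inner_smul_right, inner_smul_right, hye, hx0e]
  · have : l • x + (1 - l) • x0 - (l • y + (1 - l) • x0) = l • (x - y) := by module
    rw [this, inner_smul_right]
    exact mul_le_mul_of_nonneg_left hxy hl0

theorem slice_bound [CompleteSpace V] (K : Set V) (hK : Convex ℝ K) (hKc : IsCompact K) (e : V)
    (he : ‖e‖ = 1) (h w : ℝ)
    (hwid : ∀ v : V, ‖v‖ = 1 → inner ℝ e v = 0 →
      ∃ x ∈ {x ∈ K | inner ℝ e x = h}, ∃ y ∈ {x ∈ K | inner ℝ e x = h},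
        w ≤ inner ℝ v (x - y))
    (hne : {x ∈ K | inner ℝ e x = h}.Nonempty) (m : ℕ)
    (v : Fin m → V) (hv : ∀ i, ‖v i‖ = 1) (hve : ∀ i, inner ℝ e (v i) = 0)
    (B : Fin m → Set (ℝ × ℝ)) (hcov : ∀ x ∈ K, ∃ i, (inner ℝ (v i) x, inner ℝ e x) ∈ B i) :
    ENNReal.ofReal w ≤ ∑ i, volume ((fun s : ℝ => (s, h)) ⁻¹' (B i)) := by
  have hcl : IsClosed {x : V | inner ℝ e x = h} :=
    isClosed_eq (by fun_prop) continuous_const
  have hsl : {x ∈ K | inner ℝ e x = h} = K ∩ {x : V | inner ℝ e x = h} := rfl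
  have hcv : Convex ℝ {x ∈ K | inner ℝ e x = h} := by
    rintro x ⟨hx, hxe⟩ y ⟨hy, hye⟩ a b ha hb hab
    refine ⟨hK hx hy ha hb hab, ?_⟩
    rw [inner_add_right, inner_smul_right, inner_smul_right, hxe, hye, ← add_mul, hab, one_mul]
  refine line_cover e he h m {x ∈ K | inner ℝ e x = h} hcv (by rw [hsl]; exact hKc.inter_right hcl)
    (fun x hx => hx.2) w hwid hne v hv hve (fun i => (fun s : ℝ => (s, h)) ⁻¹' (B i)) ?_
  rintro x ⟨hx, hxe⟩
  obtain ⟨i, hi⟩ := hcov x hx
  rw [hxe] at hi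
  exact ⟨i, hi⟩

/-- If some slice has minimal width at least `w1`, then the total base area is at least half of
`w1` times the height. -/
theorem lower_area [CompleteSpace V] (K : Set V) (hK : Convex ℝ K) (hKc : IsCompact K) (e : V)
    (he : ‖e‖ = 1) (α β h1 w1 : ℝ) (hα : α ≤ h1) (hβ : h1 ≤ β) (hw1 : 0 ≤ w1)
    (xa : V) (hxa : xa ∈ K) (hxae : inner ℝ e xa = α)
    (xb : V) (hxb : xb ∈ K) (hxbe : inner ℝ e xb = β)
    (hwid : ∀ v : V, ‖v‖ = 1 → inner ℝ e v = 0 →
      ∃ x ∈ {x ∈ K | inner ℝ e x = h1}, ∃ y ∈ {x ∈ K | inner ℝ e x = h1},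
        w1 ≤ inner ℝ v (x - y))
    (hne : {x ∈ K | inner ℝ e x = h1}.Nonempty) (m : ℕ)
    (v : Fin m → V) (hv : ∀ i, ‖v i‖ = 1) (hve : ∀ i, inner ℝ e (v i) = 0)
    (B : Fin m → Set (ℝ × ℝ)) (hB : ∀ i, MeasurableSet (B i))
    (hcov : ∀ x ∈ K, ∃ i, (inner ℝ (v i) x, inner ℝ e x) ∈ B i) :
    ENNReal.ofReal (w1 * (β - α) / 2) ≤ ∑ i, volume (B i) := by
  obtain ⟨z, hz, hze⟩ := hne
  -- the slices
  have hslice : ∀ h0 l : ℝ, 0 ≤ l → l ≤ 1 → (∃ x0 ∈ K, inner ℝ e x0 = h0) →
      ENNReal.ofReal (l * w1)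
        ≤ ∑ i, volume ((fun s : ℝ => (s, l * h1 + (1 - l) * h0)) ⁻¹' (B i)) := by
    intro h0 l hl0 hl1 hx0
    obtain ⟨x0, hx0, hx0e⟩ := hx0
    refine slice_bound K hK hKc e he _ _
      (slice_width K hK e h0 h1 w1 l hl0 hl1 x0 hx0 hx0e hwid) ?_ m v hv hve B hcov
    refine ⟨l • z + (1 - l) • x0, hK hz hx0 hl0 (by linarith) (by ring), ?_⟩
    rw [inner_add_right, inner_smul_right, inner_smul_right, hze, hx0e]
  obtain ⟨G, hG⟩ : ∃ G : ℝ → ℝ≥0∞, G = fun h => ∑ i, volume ((fun s : ℝ => (s, h)) ⁻¹' (B i)) :=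
    ⟨_, rfl⟩
  have hsum : ∑ i, volume (B i) = ∫⁻ h, G h := by
    rw [hG]
    rw [lintegral_finsetSum _ (fun i _ => measurable_measure_prodMk_right (hB i))]
    refine Finset.sum_congr rfl fun i _ => ?_
    rw [Measure.volume_eq_prod, Measure.prod_apply_symm (hB i)]
  have hleft : ENNReal.ofReal (w1 * (h1 - α) / 2) ≤ ∫⁻ h in Set.Icc α h1, G h := by
    rcases hα.eq_or_lt with h0 | h0
    · rw [h0]
      simp
    · have hd : 0 < h1 - α := by linarith
      have e1 : ∫⁻ h in Set.Icc α h1, ENNReal.ofReal (0 + w1 / (h1 - α) * (h - α))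
          = ENNReal.ofReal (w1 * (h1 - α) / 2) := by
        rw [affine_lintegral α h1 0 (w1 / (h1 - α)) hα (by
          intro h hh
          have : 0 ≤ h - α := by linarith [hh.1]
          positivity)]
        congr 1
        field_simp
        ring
      rw [← e1]
      apply setLIntegral_mono' measurableSet_Icc
      intro h hh
      have e2 := hslice α ((h - α) / (h1 - α)) (div_nonneg (by linarith [hh.1]) hd.le)
        (by rw [div_le_one hd]; linarith [hh.2]) ⟨xa, hxa, hxae⟩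
      have e3 : (h - α) / (h1 - α) * h1 + (1 - (h - α) / (h1 - α)) * α = h := by
        field_simp
        ring
      rw [e3] at e2
      rw [hG]
      refine le_trans (le_of_eq ?_) e2
      congr 1
      ring
  have hright : ENNReal.ofReal (w1 * (β - h1) / 2) ≤ ∫⁻ h in Set.Icc h1 β, G h := by
    rcases hβ.eq_or_lt with h0 | h0
    · rw [h0]
      simp
    · have hd : 0 < β - h1 := by linarith
      have e1 : ∫⁻ h in Set.Icc h1 β, ENNReal.ofReal (w1 + -(w1 / (β - h1)) * (h - h1))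
          = ENNReal.ofReal (w1 * (β - h1) / 2) := by
        rw [affine_lintegral h1 β w1 (-(w1 / (β - h1))) hβ (by
          intro h hh
          have e0 : w1 + -(w1 / (β - h1)) * (h - h1) = w1 * ((β - h) / (β - h1)) := by
            field_simp
            ring
          rw [e0]
          exact mul_nonneg hw1 (div_nonneg (by linarith [hh.2]) hd.le))]
        congr 1
        field_simp
        ring
      rw [← e1]
      apply setLIntegral_mono' measurableSet_Icc
      intro h hh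
      have e2 := hslice β ((β - h) / (β - h1)) (div_nonneg (by linarith [hh.2]) hd.le)
        (by rw [div_le_one hd]; linarith [hh.1]) ⟨xb, hxb, hxbe⟩
      have e3 : (β - h) / (β - h1) * h1 + (1 - (β - h) / (β - h1)) * β = h := by
        field_simp
        ring
      rw [e3] at e2
      rw [hG]
      refine le_trans (le_of_eq ?_) e2
      congr 1
      field_simp
      ring
  have hsplit : (∫⁻ h in Set.Icc α h1, G h) + (∫⁻ h in Set.Icc h1 β, G h) ≤ ∫⁻ h, G h := by
    have e1 : ∫⁻ h in Set.Icc h1 β, G h = ∫⁻ h in Set.Ioc h1 β, G h :=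
      setLIntegral_congr Ioc_ae_eq_Icc.symm
    rw [e1, ← lintegral_union measurableSet_Ioc (by
      rw [Set.disjoint_left]
      intro x hx1 hx2
      exact absurd hx2.1 (not_lt.mpr hx1.2))]
    exact setLIntegral_le_lintegral _ _
  rw [hsum]
  refine le_trans ?_ hsplit
  refine le_trans (le_of_eq ?_) (add_le_add hleft hright)
  rw [← ENNReal.ofReal_add (by
    have : 0 ≤ h1 - α := by linarith
    positivity) (by
    have : 0 ≤ β - h1 := by linarith
    positivity)]
  congr 1
  ring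

end Vale.Agent.P243
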